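import Mathlib

namespace Vale.Agent.P192.Pump

/-- homomorphisms from a finitely generated group to a finite group form a finite set -/
lemma finite_hom_of_fg (G : Type) [Group G] (hfg : Group.FG G) (H : Type) [Group H] [Finite H] :
    Finite (G →* H) := by
  obtain ⟨S, hS⟩ := (Group.fg_iff'.mp hfg : ∃ (n : ℕ) (S : Finset G), S.card = n ∧
    Subgroup.closure (S : Set G) = ⊤) |>.choose_spec
  refine Finite.of_injective (fun (f : G →* H) (s : S) => f s.1) ?_
  intro f f' h
  refine MonoidHom.eq_of_eqOn_dense hS.2 ?_
  intro s hs
  exact congrFun h ⟨s, hs⟩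

/-- A finitely generated group acting faithfully with orbits of bounded size is finite.
Proof.  `H := Equiv.Perm (Fin D)` is finite and `G →* H` is finite (a homomorphism is determined by
its values on a finite generating set).  For each `x` the orbit `O` of `x` is finite of size at most
`D`; choose an embedding `O ↪ Fin D`; the action on `O` composed with
`Equiv.Perm.viaEmbeddingHom` is a homomorphism `f_x : G →* H` with `f_x g = 1 → ψ g x = x`.
The map `g ↦ (f ↦ f g)` from `G` to the finite type `(G →* H) → H` is injective: if `g, g'` have the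
same image then `f_x (g⁻¹ * g') = 1` for all `x`, so `ψ (g⁻¹ * g') = 1`. -/
theorem finite_of_bounded_orbits (G : Type) [Group G] (hfg : Group.FG G) (X : Type)
    (ψ : G →* Equiv.Perm X) (hψ : Function.Injective ψ) (D : ℕ)
    (hD : ∀ x, ∃ t : Finset X, t.card ≤ D ∧ ∀ g, ψ g x ∈ t) : Finite G := by
  classical
  haveI : Finite (G →* Equiv.Perm (Fin D)) := finite_hom_of_fg G hfg _
  -- the homomorphisms attached to the points
  have key : ∀ x : X, ∃ f : G →* Equiv.Perm (Fin D), ∀ g, f g = 1 → ψ g x = x := by
    intro x
    obtain ⟨t, ht, hmem⟩ := hD x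
    letI : MulAction G X := MulAction.compHom X ψ
    have hsub : MulAction.orbit G x ⊆ (t : Set X) := by
      rintro _ ⟨g, rfl⟩
      exact hmem g
    haveI : Finite (MulAction.orbit G x) := (t.finite_toSet.subset hsub).to_subtype
    haveI : Fintype (MulAction.orbit G x) := Fintype.ofFinite _
    have hcard : Fintype.card (MulAction.orbit G x) ≤ Fintype.card (Fin D) := by
      rw [Fintype.card_fin]
      refine le_trans ?_ ht
      have := Fintype.card_le_of_injective
        (fun y : MulAction.orbit G x => (⟨y.1, hsub y.2⟩ : (t : Set X)))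
        (by intro a b h; exact Subtype.ext (congrArg (fun z : (t : Set X) => z.1) h))
      simpa using this
    obtain ⟨e⟩ := Function.Embedding.nonempty_of_card_le hcard
    refine ⟨(Equiv.Perm.viaEmbeddingHom e).comp (MulAction.toPermHom G (MulAction.orbit G x)), ?_⟩
    intro g hg
    have h1 : MulAction.toPermHom G (MulAction.orbit G x) g = 1 := by
      apply Equiv.Perm.viaEmbeddingHom_injective e
      rw [map_one]
      exact hg
    have h2 := congrArg (fun p : Equiv.Perm (MulAction.orbit G x) =>
      (p ⟨x, MulAction.mem_orbit_self x⟩).1) h1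
    exact h2
  choose F hF using key
  refine Finite.of_injective
    (fun (g : G) (f : G →* Equiv.Perm (Fin D)) => f g) ?_
  intro g g' h
  have h1 : ψ (g⁻¹ * g') = 1 := by
    ext x
    have : F x (g⁻¹ * g') = 1 := by
      rw [map_mul, map_inv, inv_mul_eq_one]
      exact congrFun h (F x)
    simpa using hF x _ this
  have h2 : g⁻¹ * g' = 1 := hψ (by rw [h1, map_one])
  exact inv_mul_eq_one.mp h2

end Vale.Agent.P192.Pump
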