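import Vale.Agent.P192.Pump.Sheets

namespace Vale.Agent.P192.Pump

open Vale.Agent.P196.Tree

variable {α X : Type} {C : ℕ} {act : α → X → X} {L : ℕ} {B0 B1 : Set X} {c0 c1 : Fin C → X}
  {θ θ' : X → X}

lemma c0_mem_Kol (u : Fin C) (j : ℕ) : c0 u ∈ Kol act c0 j := ⟨u, [], Nat.zero_le _, rfl⟩

lemma CutPair.c0_notMem (h : CutPair act L B0 B1 c0 c1 θ θ') (u : Fin C) : c0 u ∉ B1 :=
  h.sep0 _ (c0_mem_Kol u L)

lemma CutPair.th'_c1 (h : CutPair act L B0 B1 c0 c1 θ θ') (u : Fin C) : θ' (c1 u) = c0 u :=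
  h.th' u [] (Nat.zero_le _)

lemma ret_of_slab {y : X} (k : ℕ) (h1 : y ∉ B1) (h0 : y ∈ B0) :
    ret B0 B1 θ θ' (y, k) = (y, k) := by
  unfold ret
  simp [h1, h0]

lemma ret_zero {y : X} (h1 : y ∉ B1) : ret B0 B1 θ θ' (y, 0) = (y, 0) := by
  unfold ret
  simp [h1]

lemma CutPair.ret_c1 (h : CutPair act L B0 B1 c0 c1 θ θ') (u : Fin C) (k : ℕ) :
    ret B0 B1 θ θ' (c1 u, k) = (c0 u, k + 1) := by
  unfold ret
  simp [h.win1 u, h.th'_c1 u]

lemma CutPair.lam0_notMem (h : CutPair act L B0 B1 c0 c1 θ θ') {y : X} (hy : y ∈ Lam B0 c0) :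
    y ∉ B1 := by
  rcases hy with hy | ⟨u, rfl⟩
  · exact fun hb => hy (h.sub hb)
  · exact h.c0_notMem u

lemma LamP_mono (n : ℕ) : LamP B0 B1 c0 n ⊆ LamP B0 B1 c0 (n + 1) := by
  rintro z ⟨hz, h | ⟨h, _⟩⟩
  · exact ⟨hz, Or.inl (by omega)⟩
  · exact ⟨hz, Or.inl (by omega)⟩

/-- sheet zero -/
lemma conn_zero (h : CutPair act L B0 B1 c0 c1 θ θ') {y y' : X}
    (hc : Conn act (Lam B0 c0) y y') :
    Conn (pact act B0 B1 θ θ') (LamP B0 B1 c0 0) (y, 0) (y', 0) := by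
  have mem : ∀ y, y ∈ Lam B0 c0 → ((y, 0) : X × ℕ) ∈ LamP B0 B1 c0 0 := by
    intro y hy
    exact ⟨⟨h.lam0_notMem hy, fun h1 => absurd h1 (by norm_num)⟩, Or.inr ⟨rfl, hy⟩⟩
  induction hc with
  | refl => exact Conn.refl _
  | tail _ hbc ih =>
    obtain ⟨hb, hc', l, rfl⟩ := hbc
    refine ih.trans ?_
    have e : pact act B0 B1 θ θ' l (_, 0) = (act l _, 0) := ret_zero (h.lam0_notMem hc')
    rw [← e]
    refine Conn.edge l (mem _ hb) ?_
    rw [e]
    exact mem _ hc'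

lemma mkP_zero (x₀ : X) (u : Option (Fin C)) : mkP x₀ c0 0 u = (mk0 x₀ c0 u, 0) := by
  cases u <;> rfl

/-- the invariant carried along a path before the second cut -/
def PInv (act : α → X → X) (B0 B1 : Set X) (c0 : Fin C → X) (θ θ' : X → X) (x₀ : X) (n : ℕ)
    (β : X × ℕ) (y : X) : Prop :=
  (y ∈ B0 → Conn (pact act B0 B1 θ θ') (LamP B0 B1 c0 (n + 1)) β (ret B0 B1 θ θ' (y, n))) ∧
  (y ∈ Lam B0 c0 → ∀ u, Conn act (Lam B0 c0) y (mk0 x₀ c0 u) →
    Conn (pact act B0 B1 θ θ') (LamP B0 B1 c0 (n + 1)) β (mkP x₀ c0 n u))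

lemma ret_mem_LamP (h : CutPair act L B0 B1 c0 c1 θ θ') (n : ℕ) {y : X} (hy : y ∈ Lam B1 c1)
    (hy0 : y ∈ B0) : ret B0 B1 θ θ' (y, n) ∈ LamP B0 B1 c0 (n + 1) := by
  rcases hy with hy | ⟨u, rfl⟩
  · rw [ret_of_slab n hy hy0]
    exact ⟨⟨hy, fun _ => hy0⟩, Or.inl (Nat.lt_succ_self n)⟩
  · rw [h.ret_c1 u n]
    exact ⟨⟨h.c0_notMem u, fun _ => h.win0 u⟩, Or.inr ⟨rfl, Or.inr ⟨u, rfl⟩⟩⟩

lemma pinv_step (h : CutPair act L B0 B1 c0 c1 θ θ') (hL : 1 ≤ L) (inv : α → α)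
    (hinv : ∀ l y, act (inv l) (act l y) = y) (x₀ : X) (n : ℕ)
    (IH : ∀ u v, Conn act (Lam B0 c0) (mk0 x₀ c0 u) (mk0 x₀ c0 v) →
      Conn (pact act B0 B1 θ θ') (LamP B0 B1 c0 n) (mkP x₀ c0 n u) (mkP x₀ c0 n v))
    (β : X × ℕ) {z t : X} (hz : PInv act B0 B1 c0 θ θ' x₀ n β z)
    (hc : Conn act (Lam B1 c1) z t) : PInv act B0 B1 c0 θ θ' x₀ n β t := by
  induction hc with
  | refl => exact hz
  | @tail y y' _ hbc ih =>
    obtain ⟨hy, hy', l, rfl⟩ := hbc
    have p1 : act l y ∈ B0 → Conn (pact act B0 B1 θ θ') (LamP B0 B1 c0 (n + 1)) β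
        (ret B0 B1 θ θ' (act l y, n)) := by
      intro hy'0
      by_cases hy0 : y ∈ B0
      · refine (ih.1 hy0).trans ?_
        have hcase : (y, n) ∈ PSet B0 B1 ∨ (y ∈ Kol act c1 (L - 1) ∧ y ∈ B1) ∨
            (1 ≤ n ∧ y ∈ Kol act c0 (L - 1) ∧ y ∉ B0) := by
          rcases hy with hy | ⟨u, rfl⟩
          · exact Or.inl ⟨hy, fun _ => hy0⟩
          · exact Or.inr (Or.inl ⟨⟨u, [], Nat.zero_le _, rfl⟩, h.win1 u⟩)
        have e := pact_ret h hL l y n hcase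
        rw [← e]
        refine Conn.edge l (ret_mem_LamP h n hy hy0) ?_
        rw [e]
        exact ret_mem_LamP h n hy' hy'0
      · obtain ⟨u', hu'⟩ := h.en0 l y hy0 hy'0
        have hl0 : y ∈ Lam B0 c0 := Or.inl hy0
        have hl0' : act l y ∈ Lam B0 c0 := Or.inr ⟨u', hu'⟩
        have := ih.2 hl0 (some u') (by
          have e : mk0 x₀ c0 (some u') = act l y := hu'
          rw [e]
          exact Conn.edge l hl0 hl0')
        rw [ret_of_slab n (h.lam0_notMem hl0') hy'0, ← hu']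
        exact this
    refine ⟨p1, ?_⟩
    intro hl0' u hu
    by_cases hl0 : y ∈ Lam B0 c0
    · exact ih.2 hl0 u ((Conn.edge l hl0 hl0').trans hu)
    · have hy0 : y ∈ B0 := by
        by_contra hn
        exact hl0 (Or.inl hn)
      have hy'0 : act l y ∈ B0 := by
        by_contra hn
        have := h.en0 (inv l) (act l y) hn (by rw [hinv]; exact hy0)
        rw [hinv] at this
        exact hl0 (Or.inr this)
      obtain ⟨u', hu'⟩ : act l y ∈ Set.range c0 := by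
        rcases hl0' with hn | hr
        · exact absurd hy'0 hn
        · exact hr
      have q1 := p1 hy'0
      rw [ret_of_slab n (h.lam0_notMem hl0') hy'0] at q1
      have q2 := IH (some u') u (by
        have e : mk0 x₀ c0 (some u') = act l y := hu'
        rw [e]
        exact hu)
      have e2 : mkP x₀ c0 n (some u') = (act l y, n) := by
        rw [← hu']
        rfl
      rw [e2] at q2
      exact q1.trans (q2.mono (LamP_mono n))

/-- Pumping preserves the connections on the near side of the cut.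
See notes/P192_pump.md, section 3. -/
theorem conn_pump (h : CutPair act L B0 B1 c0 c1 θ θ') (hL : 1 ≤ L) (inv : α → α)
    (hinv : ∀ l y, act (inv l) (act l y) = y) (x₀ : X) (hx₀ : x₀ ∉ B0)
    (hT : ∀ u v, Conn act (Lam B0 c0) (mk0 x₀ c0 u) (mk0 x₀ c0 v) →
      Conn act (Lam B1 c1) (mk0 x₀ c1 u) (mk0 x₀ c1 v)) :
    ∀ n u v, Conn act (Lam B0 c0) (mk0 x₀ c0 u) (mk0 x₀ c0 v) →
      Conn (pact act B0 B1 θ θ') (LamP B0 B1 c0 n) (mkP x₀ c0 n u) (mkP x₀ c0 n v) := by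
  intro n
  induction n with
  | zero =>
    intro u v huv
    rw [mkP_zero, mkP_zero]
    exact conn_zero h huv
  | succ n IH =>
    intro u v huv
    have h1 := hT u v huv
    have hz : PInv act B0 B1 c0 θ θ' x₀ n (mkP x₀ c0 (n + 1) u) (mk0 x₀ c1 u) := by
      cases u with
      | some i =>
        refine ⟨fun _ => ?_, fun hl => ?_⟩
        · have e : ret B0 B1 θ θ' (mk0 x₀ c1 (some i), n) = mkP x₀ c0 (n + 1) (some i) :=
            h.ret_c1 i n
          rw [e]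
          exact Conn.refl _
        · exact absurd (h.win1 i) (h.lam0_notMem hl)
      | none =>
        refine ⟨fun hb => absurd hb hx₀, fun _ u' hu' => ?_⟩
        exact (IH none u' hu').mono (LamP_mono n)
    have hy := pinv_step h hL inv hinv x₀ n IH _ hz h1
    cases v with
    | some j =>
      have := hy.1 (h.sub (h.win1 j))
      have e : ret B0 B1 θ θ' (mk0 x₀ c1 (some j), n) = mkP x₀ c0 (n + 1) (some j) :=
        h.ret_c1 j n
      rw [e] at this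
      exact this
    | none =>
      exact hy.2 (Or.inl hx₀) none (Conn.refl _)

end Vale.Agent.P192.Pump
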