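import Vale.Agent.P192.Pump.Sheets

namespace Vale.Agent.P192.Pump

open Vale.Agent.P196.Tree

variable {α X : Type} {C : ℕ} {act : α → X → X} {L : ℕ} {B0 B1 : Set X} {c0 c1 : Fin C → X}
  {θ θ' : X → X}

lemma conn_wact (act : α → X → X) (w : List α) (x : X) :
    Conn act Set.univ x (wact act w x) := by
  induction w with
  | nil => exact Conn.refl _
  | cons l w ih => exact ih.trans (Conn.edge l (Set.mem_univ _) (Set.mem_univ _))

/-- A path from outside `B` to inside `B` first enters `B` through the window. -/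
theorem first_entry (B : Set X) (c : Fin C → X)
    (en : ∀ l y, y ∉ B → act l y ∈ B → act l y ∈ Set.range c) (x₀ y : X) (hx₀ : x₀ ∉ B)
    (hy : y ∈ B) (hconn : Conn act Set.univ x₀ y) : ∃ u, Conn act (Lam B c) x₀ (c u) := by
  have key : ∀ y, Conn act Set.univ x₀ y →
      (y ∉ B ∧ Conn act (Lam B c) x₀ y) ∨ ∃ u, Conn act (Lam B c) x₀ (c u) := by
    intro y hy
    induction hy with
    | refl => exact Or.inl ⟨hx₀, Conn.refl _⟩
    | @tail b d _ hstep ih =>
      obtain ⟨_, _, l, rfl⟩ := hstep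
      rcases ih with ⟨hb, hc⟩ | hu
      · by_cases hin : act l b ∈ B
        · obtain ⟨u, hu⟩ := en l _ hb hin
          right
          refine ⟨u, ?_⟩
          rw [hu]
          exact hc.trans (Conn.edge l (Or.inl hb) (Or.inr ⟨u, hu⟩))
        · left
          exact ⟨hin, hc.trans (Conn.edge l (Or.inl hb) (Or.inl hin))⟩
      · exact Or.inr hu
  rcases key y hconn with ⟨h1, _⟩ | h
  · exact absurd hy h1
  · exact h

/-- A move of the pumped action that enters the `n`-th tail lands in the `n`-th window. -/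
lemma cross (h : CutPair act L B0 B1 c0 c1 θ θ') (hL : 1 ≤ L) (inv : α → α)
    (hinv : ∀ l y, act (inv l) (act l y) = y) (n : ℕ) (l : α) (z : X × ℕ)
    (hz : z ∈ PSet B0 B1) (hz' : z ∉ Tail B0 B1 n)
    (hp : pact act B0 B1 θ θ' l z ∈ Tail B0 B1 n) :
    ∃ u, pact act B0 B1 θ θ' l z = (c0 u, n) := by
  obtain ⟨y, k⟩ := z
  have hz1 : y ∉ B1 := hz.1
  have hz2 : 1 ≤ k → y ∈ B0 := hz.2
  have hnt : ¬ (n < k ∨ (k = n ∧ y ∈ B0)) := fun hh => hz' ⟨hz, hh⟩
  have hnk : ¬ n < k := fun hh => hnt (Or.inl hh)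
  have hnk2 : k = n → y ∉ B0 := fun h1 h2 => hnt (Or.inr ⟨h1, h2⟩)
  obtain ⟨_, hp2⟩ := hp
  by_cases ha1 : act l y ∈ B1
  · obtain ⟨u, hu⟩ := h.en1 l y hz1 ha1
    have hth : θ' (c1 u) = c0 u := h.th' u [] (Nat.zero_le _)
    have hpe : pact act B0 B1 θ θ' l (y, k) = (c0 u, k + 1) := by
      simp only [pact, ret]
      rw [if_pos ha1, ← hu, hth]
    rw [hpe] at hp2 ⊢
    simp only at hp2
    rcases hp2 with hlt | ⟨heq, _⟩
    · exfalso
      have hkn : k = n := by omega
      apply hnk2 hkn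
      apply h.sep1
      refine ⟨u, [inv l], by simpa using hL, ?_⟩
      simp only [wact]
      rw [hu, hinv]
    · exact ⟨u, by rw [heq]⟩
  · by_cases ha0 : act l y ∉ B0 ∧ 1 ≤ k
    · exfalso
      have hpe : pact act B0 B1 θ θ' l (y, k) = (θ (act l y), k - 1) := by
        simp only [pact, ret]
        rw [if_neg ha1, if_pos ha0]
      rw [hpe] at hp2
      simp only at hp2
      have := ha0.2
      rcases hp2 with hlt | ⟨heq, _⟩
      · omega
      · omega
    · have hpe : pact act B0 B1 θ θ' l (y, k) = (act l y, k) := by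
        simp only [pact, ret]
        rw [if_neg ha1, if_neg ha0]
      rw [hpe] at hp2 ⊢
      simp only at hp2
      rcases hp2 with hlt | ⟨heq, hin⟩
      · exact absurd hlt hnk
      · obtain ⟨u, hu⟩ := h.en0 l y (hnk2 heq) hin
        exact ⟨u, by rw [hu, heq]⟩

/-- A path in the pumped space ending in the `n`-th tail and starting outside of it has a final
segment inside the tail that starts in the `n`-th window.  See notes/P192_pump.md, section 4. -/
theorem last_exit (h : CutPair act L B0 B1 c0 c1 θ θ') (hL : 1 ≤ L) (inv : α → α)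
    (hinv : ∀ l y, act (inv l) (act l y) = y) (n : ℕ) (x y : X × ℕ)
    (hx' : x ∉ Tail B0 B1 n) (hy : y ∈ Tail B0 B1 n)
    (hconn : Conn (pact act B0 B1 θ θ') (PSet B0 B1) x y) :
    ∃ u, Conn (pact act B0 B1 θ θ') (Tail B0 B1 n) (c0 u, n) y := by
  have key : ∀ x, Conn (pact act B0 B1 θ θ') (PSet B0 B1) x y →
      ((x ∈ Tail B0 B1 n ∧ Conn (pact act B0 B1 θ θ') (Tail B0 B1 n) x y) ∨
      ∃ u, Conn (pact act B0 B1 θ θ') (Tail B0 B1 n) (c0 u, n) y) := by
    intro x hconn
    unfold Conn at hconn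
    induction hconn using Relation.ReflTransGen.head_induction_on with
    | refl => exact Or.inl ⟨hy, Conn.refl _⟩
    | @head a b hstep _ ih =>
      obtain ⟨ha, hb, l, rfl⟩ := hstep
      rcases ih with ⟨hb', hc⟩ | hu
      · by_cases ha' : a ∈ Tail B0 B1 n
        · exact Or.inl ⟨ha', (Conn.edge l ha' hb').trans hc⟩
        · obtain ⟨u, hu⟩ := cross h hL inv hinv n l a ha ha' hb'
          right
          refine ⟨u, ?_⟩
          rw [← hu]
          exact hc
      · exact Or.inr hu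
  rcases key x hconn with ⟨h1, _⟩ | h2
  · exact absurd h1 hx'
  · exact h2

/-- Moves inside the `0`-th tail commute with the shift of the sheets. -/
lemma shift (l : α) (z : X × ℕ) (hz : z ∈ Tail B0 B1 0)
    (hp : pact act B0 B1 θ θ' l z ∈ Tail B0 B1 0) (t : ℕ) :
    pact act B0 B1 θ θ' l (z.1, z.2 + t) =
      ((pact act B0 B1 θ θ' l z).1, (pact act B0 B1 θ θ' l z).2 + t) := by
  obtain ⟨y, k⟩ := z
  obtain ⟨_, hp2⟩ := hp
  by_cases ha1 : act l y ∈ B1
  · simp only [pact, ret]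
    rw [if_pos ha1, if_pos ha1]
    simp only [Prod.mk.injEq, true_and]
    omega
  · by_cases ha0 : act l y ∉ B0
    · by_cases hk : 1 ≤ k
      · simp only [pact, ret]
        rw [if_neg ha1, if_neg ha1, if_pos ⟨ha0, (by omega : 1 ≤ k + t)⟩, if_pos ⟨ha0, hk⟩]
        simp only [Prod.mk.injEq, true_and]
        omega
      · exfalso
        have hpe : pact act B0 B1 θ θ' l (y, k) = (act l y, k) := by
          simp only [pact, ret]
          rw [if_neg ha1, if_neg (fun hh => hk hh.2)]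
        rw [hpe] at hp2
        simp only at hp2
        rcases hp2 with hlt | ⟨_, hin⟩
        · omega
        · exact ha0 hin
    · simp only [pact, ret]
      rw [if_neg ha1, if_neg ha1, if_neg (fun hh => ha0 hh.1), if_neg (fun hh => ha0 hh.1)]

/-- A path inside the tail can be shifted.  See notes/P192_pump.md, section 4. -/
theorem word_of_conn (z z' : X × ℕ)
    (hconn : Conn (pact act B0 B1 θ θ') (Tail B0 B1 0) z z') :
    ∃ ω : List α, ∀ t, wact (pact act B0 B1 θ θ') ω (z.1, z.2 + t) = (z'.1, z'.2 + t) := by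
  induction hconn with
  | refl => exact ⟨[], fun t => rfl⟩
  | @tail b d _ hstep ih =>
    obtain ⟨hb, hd, l, rfl⟩ := hstep
    obtain ⟨ω, hω⟩ := ih
    refine ⟨l :: ω, fun t => ?_⟩
    simp only [wact]
    rw [hω t]
    exact shift l b hb hd t

lemma tail_subset (n : ℕ) : Tail B0 B1 n ⊆ Tail B0 B1 0 := by
  rintro z ⟨hz, hz2⟩
  refine ⟨hz, ?_⟩
  rcases hz2 with hlt | ⟨heq, hin⟩
  · left; omega
  · rcases Nat.eq_zero_or_pos n with h0 | h0
    · right; exact ⟨by omega, hin⟩
    · left; omega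

/-- Pigeonhole on the windows `0, …, C`.  See notes/P192_pump.md, section 4. -/
theorem exists_shift (h : CutPair act L B0 B1 c0 c1 θ θ') (hL : 1 ≤ L) (inv : α → α)
    (hinv : ∀ l y, act (inv l) (act l y) = y) (x₀ : X) (hx₀ : x₀ ∉ B0) (u₀ : Fin C)
    (hall : Conn (pact act B0 B1 θ θ') (PSet B0 B1) (x₀, 0) (c0 u₀, C)) :
    ∃ (u : Fin C) (n d : ℕ) (ω ω' : List α) (y : X × ℕ), 0 < d ∧
      (∀ t, wact (pact act B0 B1 θ θ') ω (c0 u, n + t) = (y.1, y.2 + t)) ∧
      (∀ t, wact (pact act B0 B1 θ θ') ω' (c0 u, n + (t + d)) = (y.1, y.2 + t)) := by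
  have hex : ∀ n : Fin (C + 1), ∃ u : Fin C,
      Conn (pact act B0 B1 θ θ') (Tail B0 B1 n) (c0 u, (n : ℕ)) (c0 u₀, C) := by
    intro n
    have hn : (n : ℕ) ≤ C := Nat.lt_succ_iff.mp n.2
    apply last_exit h hL inv hinv n (x₀, 0) (c0 u₀, C) _ _ hall
    · rintro ⟨_, h2⟩
      rcases h2 with hlt | ⟨_, hin⟩
      · exact absurd hlt (Nat.not_lt_zero _)
      · exact hx₀ hin
    · refine ⟨⟨?_, fun _ => h.win0 u₀⟩, ?_⟩
      · apply h.sep0
        exact ⟨u₀, [], Nat.zero_le _, rfl⟩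
      · rcases Nat.lt_or_ge (n : ℕ) C with hlt | hge
        · exact Or.inl hlt
        · exact Or.inr ⟨le_antisymm hge hn, h.win0 u₀⟩
  choose f hf using hex
  obtain ⟨a, b, hab, hfab⟩ := Fintype.exists_ne_map_eq_of_card_lt f (by simp)
  have main : ∀ a b : Fin (C + 1), (a : ℕ) < b → f a = f b →
      ∃ (u : Fin C) (n d : ℕ) (ω ω' : List α) (y : X × ℕ), 0 < d ∧
      (∀ t, wact (pact act B0 B1 θ θ') ω (c0 u, n + t) = (y.1, y.2 + t)) ∧
      (∀ t, wact (pact act B0 B1 θ θ') ω' (c0 u, n + (t + d)) = (y.1, y.2 + t)) := by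
    intro a b hlt hfab
    obtain ⟨ω, hω⟩ := word_of_conn _ _ ((hf a).mono (tail_subset _))
    obtain ⟨ω', hω'⟩ := word_of_conn _ _ ((hf b).mono (tail_subset _))
    refine ⟨f a, a, b - a, ω, ω', (c0 u₀, C), by omega, hω, fun t => ?_⟩
    have := hω' t
    rw [← hfab] at this
    have e : (a : ℕ) + (t + ((b : ℕ) - a)) = b + t := by omega
    rw [e]
    exact this
  rcases lt_or_gt_of_ne (fun hh => hab (Fin.ext hh) : (a : ℕ) ≠ b) with hlt | hgt
  · exact main a b hlt hfab
  · exact main b a hgt hfab.symm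

end Vale.Agent.P192.Pump
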