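import Vale.Agent.P196.Tree.Model
import Vale.Agent.P196.Tree.Glue

/-!
Pumping of group actions along two isomorphic thin cuts.  Common definitions.
Blueprint: notes/P192_pump.md
-/

namespace Vale.Agent.P192.Pump

open Vale.Agent.P196.Tree

/-- `x` and `y` are joined by a path of letter moves all of whose vertices lie in `Q`. -/
def Conn {α Z : Type} (m : α → Z → Z) (Q : Set Z) : Z → Z → Prop :=
  Relation.ReflTransGen (fun x y => x ∈ Q ∧ y ∈ Q ∧ ∃ l, y = m l x)

/-- A set `P` with maps `m l` preserving `P` on which every word of length at most `L` that acts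
trivially through `act` acts trivially through `m`. -/
structure IsModel {α V Z : Type} (act : α → V → V) (L : ℕ) (m : α → Z → Z) (P : Set Z) :
    Prop where
  inv : ∀ l, ∀ x ∈ P, m l x ∈ P
  rel : ∀ w : List α, w.length ≤ L → (∀ x, wact act w x = x) → ∀ x ∈ P, wact m w x = x

/-- The points at word distance at most `j` from the window enumerated by `c`. -/
def Kol {α X : Type} {C : ℕ} (act : α → X → X) (c : Fin C → X) (j : ℕ) : Set X :=
  {y | ∃ (u : Fin C) (w : List α), w.length ≤ j ∧ y = wact act w (c u)}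

/-- Two nested cuts `B1 ⊆ B0` with windows enumerated by `c0`, `c1` whose collars of radius `L`
are isomorphic through `θ`, `θ'`. -/
structure CutPair {α X : Type} {C : ℕ} (act : α → X → X) (L : ℕ) (B0 B1 : Set X)
    (c0 c1 : Fin C → X) (θ θ' : X → X) : Prop where
  sub : B1 ⊆ B0
  win0 : ∀ u, c0 u ∈ B0
  win1 : ∀ u, c1 u ∈ B1
  en0 : ∀ l y, y ∉ B0 → act l y ∈ B0 → act l y ∈ Set.range c0
  en1 : ∀ l y, y ∉ B1 → act l y ∈ B1 → act l y ∈ Set.range c1
  sep0 : ∀ y ∈ Kol act c0 L, y ∉ B1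
  sep1 : ∀ y ∈ Kol act c1 L, y ∈ B0
  th : ∀ (u : Fin C) (w : List α), w.length ≤ L → θ (wact act w (c0 u)) = wact act w (c1 u)
  th' : ∀ (u : Fin C) (w : List α), w.length ≤ L → θ' (wact act w (c1 u)) = wact act w (c0 u)
  side : ∀ (u : Fin C) (w : List α), w.length ≤ L →
    (wact act w (c0 u) ∈ B0 ↔ wact act w (c1 u) ∈ B1)

open Classical in
/-- The retraction of `X × ℕ` onto the pumped space. -/
noncomputable def ret {X : Type} (B0 B1 : Set X) (θ θ' : X → X) (z : X × ℕ) : X × ℕ :=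
  if z.1 ∈ B1 then (θ' z.1, z.2 + 1)
  else if z.1 ∉ B0 ∧ 1 ≤ z.2 then (θ z.1, z.2 - 1)
  else z

/-- The pumped action of the letters. -/
noncomputable def pact {α X : Type} (act : α → X → X) (B0 B1 : Set X) (θ θ' : X → X) (l : α)
    (z : X × ℕ) : X × ℕ :=
  ret B0 B1 θ θ' (act l z.1, z.2)

/-- The pumped space: sheet `0` is the complement of `B1`, the sheets `k ≥ 1` are copies of the
slab `B0 \ B1`. -/
def PSet {X : Type} (B0 B1 : Set X) : Set (X × ℕ) := {z | z.1 ∉ B1 ∧ (1 ≤ z.2 → z.1 ∈ B0)}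

/-- The part of `X` before the cut `B`, window included. -/
def Lam {X : Type} {C : ℕ} (B : Set X) (c : Fin C → X) : Set X := {y | y ∉ B ∨ y ∈ Set.range c}

/-- The part of the pumped space before the `n`-th copy of the first cut, window included. -/
def LamP {X : Type} {C : ℕ} (B0 B1 : Set X) (c0 : Fin C → X) (n : ℕ) : Set (X × ℕ) :=
  {z | z ∈ PSet B0 B1 ∧ (z.2 < n ∨ (z.2 = n ∧ (z.1 ∉ B0 ∨ z.1 ∈ Set.range c0)))}

/-- The part of the pumped space beyond the `n`-th copy of the first cut. -/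
def Tail {X : Type} (B0 B1 : Set X) (n : ℕ) : Set (X × ℕ) :=
  {z | z ∈ PSet B0 B1 ∧ (n < z.2 ∨ (z.2 = n ∧ z.1 ∈ B0))}

/-- Marked points of a cut: the base point and the points of the window. -/
def mk0 {X : Type} {C : ℕ} (x₀ : X) (c : Fin C → X) : Option (Fin C) → X
  | none => x₀
  | some u => c u

/-- Marked points of the `n`-th copy of the first cut in the pumped space. -/
def mkP {X : Type} {C : ℕ} (x₀ : X) (c0 : Fin C → X) (n : ℕ) : Option (Fin C) → X × ℕ
  | none => (x₀, 0)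
  | some u => (c0 u, n)

lemma Conn.mono {α Z : Type} {m : α → Z → Z} {Q Q' : Set Z} (h : Q ⊆ Q') {x y : Z}
    (hxy : Conn m Q x y) : Conn m Q' x y := by
  unfold Conn at hxy ⊢
  refine Relation.ReflTransGen.mono ?_ _ _ hxy
  rintro a b ⟨ha, hb, hl⟩
  exact ⟨h ha, h hb, hl⟩

lemma Conn.trans {α Z : Type} {m : α → Z → Z} {Q : Set Z} {x y z : Z}
    (h1 : Conn m Q x y) (h2 : Conn m Q y z) : Conn m Q x z :=
  Relation.ReflTransGen.trans h1 h2

lemma Conn.refl {α Z : Type} {m : α → Z → Z} {Q : Set Z} (x : Z) : Conn m Q x x :=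
  Relation.ReflTransGen.refl

lemma Conn.edge {α Z : Type} {m : α → Z → Z} {Q : Set Z} {x : Z} (l : α) (hx : x ∈ Q)
    (hy : m l x ∈ Q) : Conn m Q x (m l x) :=
  Relation.ReflTransGen.single ⟨hx, hy, l, rfl⟩

end Vale.Agent.P192.Pump
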