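import Vale.Agent.P192.Pump.Sphere

namespace Vale.Agent.P192.Pump

open Vale.Agent.P196.Tree

lemma LBall_finite {α X : Type} [Finite α] (act : α → X → X) (x₀ : X) (r : ℕ) :
    (LBall act x₀ r).Finite := by
  have h : LBall act x₀ r ⊆ (fun w : List α => wact act w x₀) '' {w | w.length ≤ r} := by
    rintro x ⟨w, hw, rfl⟩
    exact ⟨w, hw, rfl⟩
  exact ((List.finite_length_le α r).image _).subset h

/-- If a sphere is empty, the whole orbit lies in the ball. -/
lemma orbit_subset_LBall {G X : Type} [Group G] {n : ℕ} (π : FreeGroup (Fin n) →* G)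
    (hπ : Function.Surjective π) (ψ : G →* Equiv.Perm X) (x₀ : X) (ρ : ℕ)
    (h : ¬ ∃ x ∈ LBall (letterAct π ψ) x₀ (ρ + 1), x ∉ LBall (letterAct π ψ) x₀ ρ) (g : G) :
    ψ g x₀ ∈ LBall (letterAct π ψ) x₀ ρ := by
  obtain ⟨w₀, rfl⟩ := hπ g
  by_contra hg
  apply h
  have : wact (letterAct π ψ) w₀.toWord x₀ ∉ LBall (letterAct π ψ) x₀ ρ := by
    rwa [wact_letterAct, FreeGroup.mk_toWord]
  exact exists_sphere_point _ x₀ _ this

/-- A common bound for the lengths of finitely many relators. -/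
lemma exists_relator_bound {n : ℕ} (R : Set (FreeGroup (Fin n))) (hRfin : R.Finite) :
    ∃ L : ℕ, 2 ≤ L ∧ ∀ r ∈ R, r.toWord.length ≤ L := by
  obtain ⟨L0, hL0⟩ := (hRfin.image (fun r : FreeGroup (Fin n) => r.toWord.length)).bddAbove
  refine ⟨max L0 2, le_max_right _ _, fun r hr => ?_⟩
  exact (hL0 ⟨r, hr, rfl⟩).trans (le_max_left _ _)

/-- (A) In an infinite orbit of a finitely presented periodic group the sizes of the spheres tend
to infinity.  See notes/P192_pump.md, section 7. -/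
theorem spheres_tendsto (G : Type) [Group G] (n : ℕ) (π : FreeGroup (Fin n) →* G)
    (hπ : Function.Surjective π) (R : Set (FreeGroup (Fin n))) (hRfin : R.Finite)
    (hR : Subgroup.normalClosure R = π.ker) (htors : IsMulTorsion G)
    (X : Type) (ψ : G →* Equiv.Perm X) (x₀ : X)
    (hinf : (Set.range (fun g => ψ g x₀)).Infinite) (C : ℕ) :
    ∃ r₀, ∀ r ≥ r₀, ¬ ∃ t : Finset X, t.card ≤ C ∧ ∀ x ∈ LBall (letterAct π ψ) x₀ (r + 1),
      x ∉ LBall (letterAct π ψ) x₀ r → x ∈ t := by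
  obtain ⟨L, hL2, hL⟩ := exists_relator_bound R hRfin
  obtain ⟨M, hM⟩ := sphere_master G n π hπ R hR L hL hL2 C
  by_contra hcon
  have hthin : ∀ r₀ : ℕ, ∃ r, r₀ ≤ r ∧ ∃ t : Finset X, t.card ≤ C ∧
      ∀ x ∈ LBall (letterAct π ψ) x₀ (r + 1), x ∉ LBall (letterAct π ψ) x₀ r → x ∈ t := by
    intro r₀
    by_contra h
    apply hcon
    refine ⟨r₀, fun r hr ht => h ⟨r, hr, ht⟩⟩
  choose f hf1 hf2 using hthin
  let rr : ℕ → ℕ := fun i => Nat.rec (f 0) (fun _ ρ => f (ρ + L + 1)) i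
  have hrr : ∀ i, rr (i + 1) = f (rr i + L + 1) := fun i => rfl
  have hstep : ∀ i, rr i + L + 1 ≤ rr (i + 1) := by
    intro i
    rw [hrr]
    exact hf1 _
  have hth : ∀ i, ∃ t : Finset X, t.card ≤ C ∧
      ∀ x ∈ LBall (letterAct π ψ) x₀ (rr i + 1), x ∉ LBall (letterAct π ψ) x₀ (rr i) → x ∈ t := by
    intro i
    cases i with
    | zero => exact hf2 0
    | succ i =>
      rw [hrr]
      exact hf2 _
  have hne : ∃ x ∈ LBall (letterAct π ψ) x₀ (rr M + 1), x ∉ LBall (letterAct π ψ) x₀ (rr M) := by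
    by_contra h
    apply hinf
    apply (LBall_finite (letterAct π ψ) x₀ (rr M)).subset
    rintro _ ⟨g, rfl⟩
    exact orbit_subset_LBall π hπ ψ x₀ (rr M) h g
  obtain ⟨g, hg⟩ := hM X ψ x₀ rr hstep (fun i _ => hth i) hne
  obtain ⟨k, hk, hgk⟩ := isOfFinOrder_iff_pow_eq_one.1 (htors g)
  exact hg k hk hgk

end Vale.Agent.P192.Pump
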