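import Vale.Agent.P192.Pump.Master
import Vale.Agent.P192.Pump.GrowthA

namespace Vale.Agent.P192.Pump

open Vale.Agent.P196.Tree

lemma wact_append' {α X : Type} (act : α → X → X) (a b : List α) (y : X) :
    wact act (a ++ b) y = wact act a (wact act b y) := by
  induction a with
  | nil => rfl
  | cons l a ih =>
    simp only [List.cons_append, wact]
    rw [ih]

/-- Every word move can be undone by a word of the same length. -/
lemma exists_inverse_word {α X : Type} (act : α → X → X) (inv : α → α)
    (hinv : ∀ l y, act (inv l) (act l y) = y) (w : List α) (x : X) :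
    ∃ w' : List α, w'.length = w.length ∧ wact act w' (wact act w x) = x := by
  induction w with
  | nil => exact ⟨[], rfl, rfl⟩
  | cons l w ih =>
    obtain ⟨w', hlen, hw'⟩ := ih
    refine ⟨w' ++ [inv l], by simp [hlen], ?_⟩
    rw [wact_append']
    simp only [wact]
    rw [hinv, hw']

lemma Kol_finite {α X : Type} [Finite α] {C : ℕ} (act : α → X → X) (c : Fin C → X) (L : ℕ) :
    (Kol act c L).Finite := by
  have h : Kol act c L ⊆ (fun p : Fin C × List α => wact act p.2 (c p.1)) ''
      (Set.univ ×ˢ {w : List α | w.length ≤ L}) := by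
    rintro y ⟨u, w, hw, rfl⟩
    exact ⟨(u, w), ⟨Set.mem_univ _, hw⟩, rfl⟩
  exact ((Set.finite_univ.prod (List.finite_length_le α L)).image _).subset h

/-- A finite set is eventually avoided by a decreasing sequence with empty intersection. -/
lemma exists_avoid {X : Type} (B : ℕ → Set X) (hanti : ∀ i j, i ≤ j → B j ⊆ B i)
    (hinter : ∀ y, ∃ i, y ∉ B i) (K : Set X) (hK : K.Finite) :
    ∃ j, ∀ j' ≥ j, ∀ y ∈ K, y ∉ B j' := by
  induction K, hK using Set.Finite.induction_on with
  | empty => exact ⟨0, fun _ _ y hy => absurd hy (Set.notMem_empty y)⟩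
  | insert _ _ ih =>
    rename_i a s _ _
    obtain ⟨j, hj⟩ := ih
    obtain ⟨i, hi⟩ := hinter a
    refine ⟨max i j, fun j' hj' y hy => ?_⟩
    rcases hy with rfl | hy
    · exact fun h => hi (hanti i j' ((le_max_left _ _).trans hj') h)
    · exact hj j' ((le_max_right _ _).trans hj') y hy

/-- No thin ends.  See notes/P192_pump.md, section 10. -/
theorem thin_end (G : Type) [Group G] (n : ℕ) (π : FreeGroup (Fin n) →* G)
    (hπ : Function.Surjective π) (R : Set (FreeGroup (Fin n))) (hRfin : R.Finite)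
    (hR : Subgroup.normalClosure R = π.ker) (htors : IsMulTorsion G)
    (X : Type) (ψ : G →* Equiv.Perm X) (x₀ : X) (B : ℕ → Set X) (C : ℕ)
    (hanti : ∀ i, B (i + 1) ⊆ B i) (hinter : ∀ y, ∃ i, y ∉ B i)
    (hmeet : ∀ i, ∃ g, ψ g x₀ ∈ B i)
    (hthin : ∀ i, ∃ t : Finset X, t.card ≤ C ∧
      ∀ y ∈ B i, (∃ l, letterAct π ψ l y ∉ B i) → y ∈ t) : False := by
  classical
  obtain ⟨L, hL2, hL⟩ := exists_relator_bound R hRfin
  obtain ⟨M, hM⟩ := master G n π hπ R hR L hL hL2 C
  set act := letterAct π ψ with hact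
  have hinv : ∀ l y, act (linv l) (act l y) = y := letterAct_linv' π ψ
  have hanti' : ∀ i j, i ≤ j → B j ⊆ B i := by
    intro i j hij
    induction j, hij using Nat.le_induction with
    | base => exact subset_rfl
    | succ j _ ih => exact (hanti j).trans ih
  let bd : ℕ → Set X := fun i => {y | y ∈ B i ∧ ∃ l, act l y ∉ B i}
  have henter : ∀ i l y, y ∉ B i → act l y ∈ B i → act l y ∈ bd i := by
    intro i l y hy hy'
    refine ⟨hy', linv l, ?_⟩
    rwa [hinv]
  have hne : ∀ i, x₀ ∉ B i → (bd i).Nonempty := by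
    intro i hx
    obtain ⟨g, hg⟩ := hmeet i
    obtain ⟨w₀, rfl⟩ := hπ g
    have hw : wact act w₀.toWord x₀ ∈ B i := by
      rwa [hact, wact_letterAct, FreeGroup.mk_toWord]
    have key : ∀ w : List (Fin n × Bool), wact act w x₀ ∈ B i → (bd i).Nonempty := by
      intro w
      induction w with
      | nil => exact fun h => absurd h hx
      | cons l w ih =>
        intro h
        by_cases hw' : wact act w x₀ ∈ B i
        · exact ih hw'
        · exact ⟨_, henter i l _ hw' h⟩
    exact key _ hw
  have henum : ∀ i, ∃ c : Fin C → X, x₀ ∉ B i → Set.range c = bd i := by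
    intro i
    by_cases hi : x₀ ∉ B i
    · obtain ⟨t, ht, hts⟩ := hthin i
      obtain ⟨c, hc⟩ := exists_enum (bd i) t C ht (fun y hy => hts y hy.1 hy.2) (hne i hi)
      exact ⟨c, fun _ => hc⟩
    · exact ⟨fun _ => x₀, fun h => absurd h hi⟩
  choose c hc using henum
  have hnext : ∀ i, ∃ j, i < j ∧ ∀ y ∈ Kol act (c i) L, y ∉ B j := by
    intro i
    obtain ⟨j, hj⟩ := exists_avoid B hanti' hinter _ (Kol_finite act (c i) L)
    exact ⟨max j (i + 1), lt_of_lt_of_le (Nat.lt_succ_self i) (le_max_right _ _),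
      hj _ (le_max_left _ _)⟩
  choose next hnext1 hnext2 using hnext
  obtain ⟨i0, hi0⟩ := hinter x₀
  let idx : ℕ → ℕ := fun k => Nat.rec i0 (fun _ i => next i) k
  have hidx : ∀ k, idx (k + 1) = next (idx k) := fun k => rfl
  have hidx_lt : ∀ k, idx k < idx (k + 1) := fun k => by
    rw [hidx]
    exact hnext1 _
  have hidx_mono : ∀ k k', k ≤ k' → idx k ≤ idx k' := by
    intro k k' hkk
    induction k', hkk using Nat.le_induction with
    | base => exact le_rfl
    | succ j _ ih => exact ih.trans (hidx_lt j).le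
  have hx₀ : ∀ k, x₀ ∉ B (idx k) := by
    intro k h
    exact hi0 (hanti' i0 (idx k) (hidx_mono 0 k (Nat.zero_le k)) h)
  have hrange : ∀ k, Set.range (c (idx k)) = bd (idx k) := fun k => hc _ (hx₀ k)
  have hcbd : ∀ k u, c (idx k) u ∈ bd (idx k) := by
    intro k u
    rw [← hrange k]
    exact ⟨u, rfl⟩
  have hsep0 : ∀ k k', k < k' → ∀ y ∈ Kol act (c (idx k)) L, y ∉ B (idx k') := by
    intro k k' hkk y hy h
    have h1 : B (idx k') ⊆ B (idx (k + 1)) := hanti' _ _ (hidx_mono (k + 1) k' hkk)
    have h2 := h1 h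
    rw [hidx] at h2
    exact hnext2 _ y hy h2
  obtain ⟨g, hg⟩ := hM X ψ x₀ (fun k => B (idx k)) (fun k => c (idx k))
    (fun k k' hkk _ => hanti' _ _ (hidx_mono k k' hkk)) (hx₀ 0)
    (fun k _ u => (hcbd k u).1)
    (fun k _ l y hy hy' => by
      rw [hrange k]
      exact henter _ l y hy hy')
    (fun k k' hkk _ => by
      refine ⟨hsep0 k k' hkk, ?_⟩
      rintro y ⟨u, w, hw, rfl⟩
      induction w with
      | nil => exact hanti' _ _ (hidx_mono k k' hkk.le) (hcbd k' u).1
      | cons l w ih =>
        have hw' : w.length ≤ L := by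
          simp only [List.length_cons] at hw
          omega
        have hy' := ih hw'
        by_contra hout
        have hb : wact act w (c (idx k') u) ∈ bd (idx k) := ⟨hy', l, hout⟩
        rw [← hrange k] at hb
        obtain ⟨v, hv⟩ := hb
        obtain ⟨w'', hlen, hw''⟩ := exists_inverse_word act linv hinv w (c (idx k') u)
        have hmem : c (idx k') u ∈ Kol act (c (idx k)) L := by
          refine ⟨v, w'', by omega, ?_⟩
          rw [hv, hw'']
        exact hsep0 k k' hkk _ hmem (hcbd k' u).1)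
    (hmeet _)
  obtain ⟨k, hk, hgk⟩ := isOfFinOrder_iff_pow_eq_one.1 (htors g)
  exact hg k hk hgk

end Vale.Agent.P192.Pump
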