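import Vale.Agent.P192.Pump.SDefs
import Vale.Agent.P192.Pump.Growth
import Vale.Agent.P192.Pump.ThinEnd
import Vale.Agent.P192.Embed

namespace Vale.Agent.P192.Pump

open Vale.Agent.P196.Tree

lemma base_mem_sball {G X : Type} [Group G] [MulAction G X] (S : Set G) (x : X) (r : ℕ) :
    x ∈ sball S x r := by
  induction r with
  | zero => simp [sball]
  | succ r ih => exact Or.inl ih

lemma letterAct_toPermHom_true {G X : Type} [Group G] [MulAction G X] {n : ℕ}
    (π : FreeGroup (Fin n) →* G) (i : Fin n) (z : X) :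
    letterAct π (MulAction.toPermHom G X) (i, true) z = π (FreeGroup.of i) • z := rfl

lemma letterAct_toPermHom_false {G X : Type} [Group G] [MulAction G X] {n : ℕ}
    (π : FreeGroup (Fin n) →* G) (i : Fin n) (z : X) :
    letterAct π (MulAction.toPermHom G X) (i, false) z = (π (FreeGroup.of i))⁻¹ • z := by
  show ((MulAction.toPermHom G X) (π (FreeGroup.of i)))⁻¹ z = _
  rw [← map_inv]
  rfl

/-- A set of extended cardinality at most `k` lies in a finset with at most `k` elements. -/
lemma exists_finset_of_encard_le {X : Type} (A : Set X) (k : ℕ) (h : A.encard ≤ (k : ℕ∞)) :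
    ∃ t : Finset X, t.card ≤ k ∧ ∀ y ∈ A, y ∈ t := by
  have hfin : A.Finite := Set.finite_of_encard_le_coe h
  refine ⟨hfin.toFinset, ?_, fun y hy => hfin.mem_toFinset.2 hy⟩
  rw [hfin.encard_eq_coe_toFinset_card] at h
  exact_mod_cast h

/-- Passage from a finite generating set to a presentation on these generators.
Proof: `n = S.card`, `e : Fin n ≃ S` (`S.equivFin.symm`), `π = FreeGroup.lift (fun i => (e i : G))`,
surjective since `closure S = ⊤`; the kernel is finitely normally generated by
`Vale.Agent.P192.fng_ker_of_surjective`.  The equality of balls is an induction on `r`. -/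
theorem exists_presentation (G : Type) [Group G] (hfp : Group.IsFinitelyPresented G)
    (S : Finset G) (hS : Subgroup.closure (S : Set G) = ⊤) :
    ∃ (n : ℕ) (π : FreeGroup (Fin n) →* G) (R : Set (FreeGroup (Fin n))),
      Function.Surjective π ∧ R.Finite ∧ Subgroup.normalClosure R = π.ker ∧
      (∀ (X : Type) [MulAction G X] (y : X) (P : X → Prop),
        (∃ l, P (letterAct π (MulAction.toPermHom G X) l y)) ↔
          ∃ s ∈ S, P (s • y) ∨ P (s⁻¹ • y)) ∧
      ∀ (X : Type) [MulAction G X] (x : X) (r : ℕ),
        sball (S : Set G) x r = LBall (letterAct π (MulAction.toPermHom G X)) x r := by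
  classical
  let e : Fin S.card ≃ S := S.equivFin.symm
  let π : FreeGroup (Fin S.card) →* G := FreeGroup.lift (fun i => (e i : G))
  have hπof : ∀ i, π (FreeGroup.of i) = (e i : G) := fun i => by simp [π]
  have hπ : Function.Surjective π := by
    rw [← MonoidHom.range_eq_top, FreeGroup.range_lift_eq_closure, ← hS]
    congr 1
    ext g
    constructor
    · rintro ⟨i, rfl⟩
      exact (e i).2
    · intro hg
      exact ⟨e.symm ⟨g, hg⟩, by simp⟩
  obtain ⟨R, hRfin, hR⟩ := Vale.Agent.P192.fng_ker_of_surjective π hπ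
  refine ⟨S.card, π, R, hπ, hRfin, hR, ?_, ?_⟩
  · intro X _ y P
    constructor
    · rintro ⟨⟨i, b⟩, hl⟩
      refine ⟨(e i : G), (e i).2, ?_⟩
      cases b
      · right
        rwa [letterAct_toPermHom_false, hπof] at hl
      · left
        rwa [letterAct_toPermHom_true, hπof] at hl
    · rintro ⟨s, hs, hP⟩
      have hsi : π (FreeGroup.of (e.symm ⟨s, hs⟩)) = s := by
        rw [hπof]
        simp
      rcases hP with hP | hP
      · refine ⟨(e.symm ⟨s, hs⟩, true), ?_⟩
        rwa [letterAct_toPermHom_true, hsi]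
      · refine ⟨(e.symm ⟨s, hs⟩, false), ?_⟩
        rwa [letterAct_toPermHom_false, hsi]
  intro X _ x r
  induction r with
  | zero =>
    ext y
    simp only [sball, Set.mem_singleton_iff]
    constructor
    · rintro rfl
      exact ⟨[], by simp, rfl⟩
    · rintro ⟨w, hw, rfl⟩
      have : w = [] := List.length_eq_zero_iff.1 (Nat.le_zero.1 hw)
      subst this
      rfl
  | succ r ih =>
    ext y
    constructor
    · rintro (hy | ⟨s, hs, z, hz, hy⟩)
      · rw [ih] at hy
        exact LBall_mono _ x (Nat.le_succ r) hy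
      · rw [ih] at hz
        have hsi : π (FreeGroup.of (e.symm ⟨s, hs⟩)) = s := by
          rw [hπof]
          simp
        rcases hy with rfl | rfl
        · have := act_mem_LBall (letterAct π (MulAction.toPermHom G X)) x (e.symm ⟨s, hs⟩, true) hz
          rwa [letterAct_toPermHom_true, hsi] at this
        · have := act_mem_LBall (letterAct π (MulAction.toPermHom G X)) x (e.symm ⟨s, hs⟩, false) hz
          rwa [letterAct_toPermHom_false, hsi] at this
    · rintro ⟨w, hw, rfl⟩
      cases w with
      | nil => exact base_mem_sball _ x _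
      | cons l w =>
        have hz : wact (letterAct π (MulAction.toPermHom G X)) w x ∈ sball (S : Set G) x r := by
          rw [ih]
          exact ⟨w, by simpa using hw, rfl⟩
        obtain ⟨i, b⟩ := l
        refine Or.inr ⟨(e i : G), (e i).2, _, hz, ?_⟩
        simp only [wact]
        cases b
        · right
          rw [letterAct_toPermHom_false, hπof]
        · left
          rw [letterAct_toPermHom_true, hπof]

/-- No thin ends: from `thin_end` (file ThinEnd) and `exists_presentation`. -/
theorem thm_thin_end (G : Type) [Group G] (hfp : Group.IsFinitelyPresented G)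
    (htors : IsMulTorsion G) (S : Finset G) (hS : Subgroup.closure (S : Set G) = ⊤)
    (X : Type) [MulAction G X] (x : X) (B : ℕ → Set X) (C : ℕ)
    (hanti : ∀ i, B (i + 1) ⊆ B i) (hinter : ⋂ i, B i = ∅) (hmeet : ∀ i, ∃ g : G, g • x ∈ B i) :
    ∃ i, (C : ℕ∞) < {y | y ∈ B i ∧ ∃ s ∈ S, s • y ∉ B i ∨ s⁻¹ • y ∉ B i}.encard := by
  obtain ⟨n, π, R, hπ, hRfin, hR, hlet, -⟩ := exists_presentation G hfp S hS
  by_contra hcon
  push Not at hcon
  refine thin_end G n π hπ R hRfin hR htors X (MulAction.toPermHom G X) x B C hanti ?_ hmeet ?_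
  · intro y
    by_contra hy
    push Not at hy
    have : y ∈ ⋂ i, B i := Set.mem_iInter.2 hy
    rw [hinter] at this
    exact this
  · intro i
    obtain ⟨t, ht, hts⟩ := exists_finset_of_encard_le _ C (hcon i)
    refine ⟨t, ht, fun y hy hl => hts y ⟨hy, ?_⟩⟩
    exact (hlet X y (fun z => z ∉ B i)).1 hl

theorem thm_spheres (G : Type) [Group G] (hfp : Group.IsFinitelyPresented G)
    (htors : IsMulTorsion G) (S : Finset G) (hS : Subgroup.closure (S : Set G) = ⊤)
    (X : Type) [MulAction G X] (x : X) (hinf : (MulAction.orbit G x).Infinite) (C : ℕ) :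
    ∃ r₀, ∀ r ≥ r₀, (C : ℕ∞) < (sball (S : Set G) x (r + 1) \ sball (S : Set G) x r).encard := by
  obtain ⟨n, π, R, hπ, hRfin, hR, -, hball⟩ := exists_presentation G hfp S hS
  obtain ⟨r₀, hr₀⟩ := spheres_tendsto G n π hπ R hRfin hR htors X (MulAction.toPermHom G X) x
    hinf C
  refine ⟨r₀, fun r hr => ?_⟩
  by_contra hcon
  rw [not_lt] at hcon
  obtain ⟨t, ht, hts⟩ := exists_finset_of_encard_le _ C hcon
  apply hr₀ r hr
  refine ⟨t, ht, fun y hy hy' => hts y ?_⟩
  rw [hball X x, hball X x]
  exact ⟨hy, hy'⟩

theorem thm_linear (G : Type) [Group G] (hfp : Group.IsFinitelyPresented G)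
    (htors : IsMulTorsion G) (S : Finset G) (hS : Subgroup.closure (S : Set G) = ⊤)
    (X : Type) [MulAction G X] [FaithfulSMul G X] (C : ℕ)
    (hlin : ∀ (x : X) (r : ℕ), (sball (S : Set G) x r).encard ≤ C * (r + 1)) : Finite G := by
  obtain ⟨n, π, R, hπ, hRfin, hR, -, hball⟩ := exists_presentation G hfp S hS
  refine finite_of_linear G n π hπ R hRfin hR htors X (MulAction.toPermHom G X)
    MulAction.toPerm_injective C ?_
  intro x r
  have h := hlin x r
  rw [hball X x] at h
  exact exists_finset_of_encard_le _ (C * (r + 1)) (by exact_mod_cast h)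

end Vale.Agent.P192.Pump
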