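import Vale.Agent.P192.Pump.Sphere
import Vale.Agent.P192.Pump.Bounded

namespace Vale.Agent.P192.Pump

open Vale.Agent.P196.Tree

lemma LBall_mono' {α X : Type} (act : α → X → X) (x : X) {r s : ℕ} (h : r ≤ s) :
    LBall act x r ⊆ LBall act x s := by
  rintro y ⟨w, hw, rfl⟩
  exact ⟨w, hw.trans h, rfl⟩

lemma LBall_closed' {α X : Type} (act : α → X → X) (x : X) (ρ : ℕ)
    (h : LBall act x (ρ + 1) ⊆ LBall act x ρ) (w : List α) : wact act w x ∈ LBall act x ρ := by
  induction w with
  | nil => exact ⟨[], by simp, rfl⟩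
  | cons l w ih =>
    obtain ⟨w', hw', he⟩ := ih
    apply h
    refine ⟨l :: w', by simpa using hw', ?_⟩
    simp only [wact]
    rw [he]

/-- arithmetic lemma: a function of linear growth has a small increment in every window -/
lemma exists_thin (b : ℕ → ℕ) (C : ℕ) (hb : ∀ r, b r ≤ C * (r + 1)) (ρ : ℕ) :
    ∃ r, ρ ≤ r ∧ r ≤ 2 * ρ + 1 ∧ b (r + 1) ≤ b r + 2 * C := by
  by_contra hcon
  have hbig : ∀ r, ρ ≤ r → r ≤ 2 * ρ + 1 → b r + 2 * C + 1 ≤ b (r + 1) := by
    intro r h1 h2
    by_contra h3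
    exact hcon ⟨r, h1, h2, by omega⟩
  have hind : ∀ k, k ≤ ρ + 2 → k * (2 * C + 1) ≤ b (ρ + k) := by
    intro k
    induction k with
    | zero => intro _; simp
    | succ k ih =>
      intro hk
      have h1 := ih (by omega)
      have h2 := hbig (ρ + k) (by omega) (by omega)
      have h3 : ρ + (k + 1) = ρ + k + 1 := by ring
      rw [h3]
      nlinarith
  have h1 := hind (ρ + 2) le_rfl
  have h2 := hb (ρ + (ρ + 2))
  nlinarith

/-- (B) A finitely presented periodic group acting faithfully with uniformly linear orbit growth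
is finite.  See notes/P192_pump.md, section 8. -/
theorem finite_of_linear (G : Type) [Group G] (n : ℕ) (π : FreeGroup (Fin n) →* G)
    (hπ : Function.Surjective π) (R : Set (FreeGroup (Fin n))) (hRfin : R.Finite)
    (hR : Subgroup.normalClosure R = π.ker) (htors : IsMulTorsion G)
    (X : Type) (ψ : G →* Equiv.Perm X) (hψ : Function.Injective ψ) (C : ℕ)
    (hlin : ∀ x r, ∃ t : Finset X, t.card ≤ C * (r + 1) ∧
      ∀ y ∈ LBall (letterAct π ψ) x r, y ∈ t) : Finite G := by
  classical
  -- the relator length bound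
  obtain ⟨L, hL, hL2⟩ : ∃ L : ℕ, (∀ r ∈ R, r.toWord.length ≤ L) ∧ 2 ≤ L := by
    refine ⟨hRfin.toFinset.sup (fun r => r.toWord.length) + 2, ?_, by omega⟩
    intro r hr
    have := Finset.le_sup (f := fun r : FreeGroup (Fin n) => r.toWord.length)
      (hRfin.mem_toFinset.mpr hr)
    exact le_trans this (Nat.le_add_right _ _)
  obtain ⟨M, hM⟩ := sphere_master G n π hπ R hR L hL hL2 (2 * C)
  set act := letterAct π ψ with hact
  let F : ℕ → ℕ := fun i => Nat.rec 1 (fun _ p => 2 * (p + (L + 1)) + 1) i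
  have hfg : Group.FG G := Group.fg_of_surjective hπ
  refine finite_of_bounded_orbits G hfg X ψ hψ (C * (F M + 1)) ?_
  intro x
  have hfin : ∀ r, (LBall act x r).Finite := by
    intro r
    obtain ⟨t, _, ht⟩ := hlin x r
    exact t.finite_toSet.subset (fun y hy => ht y hy)
  let b : ℕ → ℕ := fun r => (LBall act x r).ncard
  have hb : ∀ r, b r ≤ C * (r + 1) := by
    intro r
    obtain ⟨t, htc, ht⟩ := hlin x r
    have h1 : (LBall act x r).ncard ≤ (t : Set X).ncard :=
      Set.ncard_le_ncard (fun y hy => ht y hy) t.finite_toSet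
    rw [Set.ncard_coe_finset] at h1
    exact h1.trans htc
  have hthin := exists_thin b C hb
  choose g hg1 hg2 hg3 using hthin
  let r : ℕ → ℕ := fun i => Nat.rec (g 0) (fun _ p => g (p + (L + 1))) i
  have hr0 : r 0 = g 0 := rfl
  have hrs : ∀ i, r (i + 1) = g (r i + (L + 1)) := fun _ => rfl
  have hF0 : F 0 = 1 := rfl
  have hFs : ∀ i, F (i + 1) = 2 * (F i + (L + 1)) + 1 := fun _ => rfl
  have hrF : ∀ i, r i ≤ F i := by
    intro i
    induction i with
    | zero => rw [hr0, hF0]; simpa using hg2 0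
    | succ i ih =>
      rw [hrs, hFs]
      have := hg2 (r i + (L + 1))
      omega
  have hrthin : ∀ i, b (r i + 1) ≤ b (r i) + 2 * C := by
    intro i
    cases i with
    | zero => exact hg3 0
    | succ i => exact hg3 _
  have hstep : ∀ i, r i + L + 1 ≤ r (i + 1) := by
    intro i
    rw [hrs]
    have := hg1 (r i + (L + 1))
    omega
  have hsph : ∀ i ≤ M, ∃ t : Finset X, t.card ≤ 2 * C ∧ ∀ y ∈ LBall act x (r i + 1),
      y ∉ LBall act x (r i) → y ∈ t := by
    intro i _
    have hfd : (LBall act x (r i + 1) \ LBall act x (r i)).Finite := (hfin _).sdiff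
    refine ⟨hfd.toFinset, ?_, ?_⟩
    · rw [← Set.ncard_eq_toFinset_card _ hfd]
      have h1 := Set.ncard_sdiff_add_ncard_of_subset
        (LBall_mono' act x (Nat.le_succ (r i))) (hfin (r i + 1))
      have h2 := hrthin i
      simp only [b] at h2
      have h3 : r i + 1 = (r i).succ := rfl
      rw [← h3] at h1
      omega
    · intro y hy hy'
      exact hfd.mem_toFinset.mpr ⟨hy, hy'⟩
  have hclosed : LBall act x (r M + 1) ⊆ LBall act x (r M) := by
    intro y hy
    by_contra hy'
    obtain ⟨g₀, hg₀⟩ := hM X ψ x r hstep hsph ⟨y, hy, hy'⟩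
    obtain ⟨k, hk, hk1⟩ := isOfFinOrder_iff_pow_eq_one.mp (htors g₀)
    exact hg₀ k hk hk1
  obtain ⟨t, htc, ht⟩ := hlin x (r M)
  refine ⟨t, htc.trans (Nat.mul_le_mul_left _ (by have := hrF M; omega)), ?_⟩
  intro g'
  obtain ⟨w, rfl⟩ := hπ g'
  apply ht
  have := LBall_closed' act x (r M) hclosed w.toWord
  rwa [hact, wact_letterAct, FreeGroup.mk_toWord] at this

end Vale.Agent.P192.Pump
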