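import Vale.Agent.P192.Pump.SDefs
import Vale.Agent.P192.Pump.GrowthB

namespace Vale.Agent.P192.Pump

open Vale.Agent.P196.Tree

/-- The group element of a letter. -/
def letterElt {G : Type} [Group G] {n : ℕ} (π : FreeGroup (Fin n) →* G) (l : Fin n × Bool) : G :=
  cond l.2 (π (FreeGroup.of l.1)) (π (FreeGroup.of l.1))⁻¹

lemma letterAct_eq {G V : Type} [Group G] {n : ℕ} (π : FreeGroup (Fin n) →* G)
    (ψ : G →* Equiv.Perm V) (l : Fin n × Bool) (y : V) :
    letterAct π ψ l y = ψ (letterElt π l) y := by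
  obtain ⟨j, b⟩ := l
  cases b <;> simp [letterAct, letterElt]

/-- A common natural bound for finitely many integer bounds. -/
lemma exists_common_bound {ι : Type} [Finite ι] (f : ι → ℤ) : ∃ N : ℕ, ∀ i, f i ≤ N := by
  obtain ⟨N₀, hN₀⟩ := (Set.finite_range f).bddAbove
  refine ⟨N₀.toNat, fun i => ?_⟩
  exact le_trans (hN₀ ⟨i, rfl⟩) (Int.self_le_toNat N₀)

lemma card_arith (N r : ℕ) : 2 * (r * N) + 1 ≤ (2 * N + 1) * (r + 1) := by
  nlinarith [Nat.zero_le (r * N), Nat.zero_le N, Nat.zero_le r]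

/-- Proof: presentation from `hfp.out`, `N` a common bound for the letters (as in
`Vale.Agent.Results.P196.A0_Wobbling.wobbling_aux`); the ball of radius `r` around `x` lies in the
union of the fibres of `o` over `[o x - r N, o x + r N]`, of size at most `C (2 N + 1) (r + 1)`;
conclude with `finite_of_linear`. -/
theorem thm_quasi_line (X : Type) (o : X → ℤ) (C : ℕ)
    (hC : ∀ n : ℤ, ∃ t : Finset X, t.card ≤ C ∧ ∀ x, o x = n → x ∈ t)
    (G : Type) [Group G] (hfp : Group.IsFinitelyPresented G) (htors : IsMulTorsion G)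
    (ψ : G →* Equiv.Perm X) (hψ : Function.Injective ψ)
    (hb : ∀ g, ∃ N : ℤ, ∀ x, |o (ψ g x) - o x| ≤ N) : Finite G := by
  classical
  obtain ⟨n, π, hπ, R, hRfin, hR⟩ := hfp.out
  choose Nf hNf using hb
  obtain ⟨N, hN⟩ := exists_common_bound (fun l : Fin n × Bool => Nf (letterElt π l))
  have hact : ∀ l y, |o (letterAct π ψ l y) - o y| ≤ (N : ℤ) := by
    intro l y
    rw [letterAct_eq]
    exact le_trans (hNf _ y) (hN l)
  have hword : ∀ (w : List (Fin n × Bool)) (x : X),
      |o (wact (letterAct π ψ) w x) - o x| ≤ (w.length : ℤ) * N := by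
    intro w x
    induction w with
    | nil => simp [wact]
    | cons l w ih =>
      have h1 := hact l (wact (letterAct π ψ) w x)
      have h2 : o (wact (letterAct π ψ) (l :: w) x) - o x =
          (o (letterAct π ψ l (wact (letterAct π ψ) w x)) - o (wact (letterAct π ψ) w x))
            + (o (wact (letterAct π ψ) w x) - o x) := by
        simp only [wact]
        ring
      rw [h2]
      refine le_trans (abs_add_le _ _) ?_
      simp only [List.length_cons]
      push_cast
      linarith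
  choose T hTcard hT using hC
  refine finite_of_linear G n π hπ R hRfin hR htors X ψ hψ (C * (2 * N + 1)) ?_
  intro x r
  refine ⟨(Finset.Icc (o x - (r * N : ℕ)) (o x + (r * N : ℕ))).biUnion T, ?_, ?_⟩
  · refine le_trans Finset.card_biUnion_le ?_
    refine le_trans (Finset.sum_le_sum (fun i _ => hTcard i)) ?_
    rw [Finset.sum_const, smul_eq_mul, Int.card_Icc]
    have h1 : (o x + (r * N : ℕ) + 1 - (o x - (r * N : ℕ))).toNat = 2 * (r * N) + 1 := by
      have : o x + (r * N : ℕ) + 1 - (o x - (r * N : ℕ)) = ((2 * (r * N) + 1 : ℕ) : ℤ) := by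
        push_cast
        ring
      rw [this, Int.toNat_natCast]
    rw [h1]
    calc (2 * (r * N) + 1) * C ≤ ((2 * N + 1) * (r + 1)) * C :=
          Nat.mul_le_mul_right C (card_arith N r)
      _ = C * (2 * N + 1) * (r + 1) := by ring
  · rintro y ⟨w, hw, rfl⟩
    rw [Finset.mem_biUnion]
    refine ⟨o (wact (letterAct π ψ) w x), ?_, hT _ _ rfl⟩
    have h1 := hword w x
    have h2 : (w.length : ℤ) * N ≤ ((r * N : ℕ) : ℤ) := by
      push_cast
      have : (w.length : ℤ) ≤ r := by exact_mod_cast hw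
      exact mul_le_mul_of_nonneg_right this (by positivity)
    have h3 := abs_le.mp (le_trans h1 h2)
    rw [Finset.mem_Icc]
    constructor <;> linarith [h3.1, h3.2]

/-- Proof: the ball of radius `r` around `x` lies in `{(φ ^ k) x | |k| ≤ r N}`; conclude with
`finite_of_linear`. -/
theorem thm_orbit (X : Type) (φ : Equiv.Perm X)
    (G : Type) [Group G] (hfp : Group.IsFinitelyPresented G) (htors : IsMulTorsion G)
    (ψ : G →* Equiv.Perm X) (hψ : Function.Injective ψ)
    (hb : ∀ g, ∃ N : ℤ, ∀ x, ∃ k : ℤ, |k| ≤ N ∧ ψ g x = (φ ^ k) x) : Finite G := by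
  classical
  obtain ⟨n, π, hπ, R, hRfin, hR⟩ := hfp.out
  choose Nf hNf using hb
  obtain ⟨N, hN⟩ := exists_common_bound (fun l : Fin n × Bool => Nf (letterElt π l))
  have hact : ∀ l y, ∃ k : ℤ, |k| ≤ (N : ℤ) ∧ letterAct π ψ l y = (φ ^ k) y := by
    intro l y
    rw [letterAct_eq]
    obtain ⟨k, hk, hky⟩ := hNf (letterElt π l) y
    exact ⟨k, le_trans hk (hN l), hky⟩
  have hword : ∀ (w : List (Fin n × Bool)) (x : X),
      ∃ k : ℤ, |k| ≤ (w.length : ℤ) * N ∧ wact (letterAct π ψ) w x = (φ ^ k) x := by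
    intro w x
    induction w with
    | nil => exact ⟨0, by simp, by simp [wact]⟩
    | cons l w ih =>
      obtain ⟨k, hk, hkx⟩ := ih
      obtain ⟨k', hk', hkx'⟩ := hact l (wact (letterAct π ψ) w x)
      refine ⟨k' + k, ?_, ?_⟩
      · refine le_trans (abs_add_le _ _) ?_
        simp only [List.length_cons]
        push_cast
        linarith
      · simp only [wact]
        rw [hkx', hkx, zpow_add, Equiv.Perm.mul_apply]
  refine finite_of_linear G n π hπ R hRfin hR htors X ψ hψ (2 * N + 1) ?_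
  intro x r
  refine ⟨(Finset.Icc (-((r * N : ℕ) : ℤ)) ((r * N : ℕ) : ℤ)).image (fun k => (φ ^ k) x), ?_, ?_⟩
  · refine le_trans Finset.card_image_le ?_
    rw [Int.card_Icc]
    have h1 : (((r * N : ℕ) : ℤ) + 1 - (-((r * N : ℕ) : ℤ))).toNat = 2 * (r * N) + 1 := by
      have : ((r * N : ℕ) : ℤ) + 1 - (-((r * N : ℕ) : ℤ)) = ((2 * (r * N) + 1 : ℕ) : ℤ) := by
        push_cast
        ring
      rw [this, Int.toNat_natCast]
    rw [h1]
    exact card_arith N r
  · rintro y ⟨w, hw, rfl⟩
    obtain ⟨k, hk, hkx⟩ := hword w x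
    rw [Finset.mem_image]
    refine ⟨k, ?_, hkx.symm⟩
    have h2 : (w.length : ℤ) * N ≤ ((r * N : ℕ) : ℤ) := by
      push_cast
      have : (w.length : ℤ) ≤ r := by exact_mod_cast hw
      exact mul_le_mul_of_nonneg_right this (by positivity)
    have h3 := abs_le.mp (le_trans hk h2)
    rw [Finset.mem_Icc]
    exact ⟨h3.1, h3.2⟩

/-- The underlying permutation of a homeomorphism, as a group homomorphism. -/
def homeoPermHom (X : Type) [TopologicalSpace X] : (X ≃ₜ X) →* Equiv.Perm X where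
  toFun g := g.toEquiv
  map_one' := rfl
  map_mul' _ _ := rfl

/-- Proof: as `Vale.Agent.Results.P196.A0_Wobbling.full_group`, from `thm_orbit`. -/
theorem thm_full_group (X : Type) [TopologicalSpace X] (φ : X ≃ₜ X) (S : Subgroup (X ≃ₜ X))
    (hSφ : ∀ g ∈ S, InFullGroup φ g) (hfp : Group.IsFinitelyPresented S)
    (htors : IsMulTorsion S) : Finite S := by
  refine thm_orbit X (homeoPermHom X φ) S hfp htors ((homeoPermHom X).comp S.subtype) ?_ ?_
  · intro g g' h
    apply Subtype.ext
    ext x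
    have := congrArg (fun f : Equiv.Perm X => f x) h
    exact this
  · intro g
    obtain ⟨k, U, n, _, _, hcov, hg⟩ := hSφ g.1 g.2
    obtain ⟨N, hN⟩ := (Set.finite_range (fun i : Fin k => |n i|)).bddAbove
    refine ⟨N, ?_⟩
    intro x
    have hx : x ∈ ⋃ i, U i := by rw [hcov]; exact Set.mem_univ x
    obtain ⟨i, hi⟩ := Set.mem_iUnion.mp hx
    refine ⟨n i, hN ⟨i, rfl⟩, ?_⟩
    rw [← map_zpow]
    exact hg i x hi

end Vale.Agent.P192.Pump
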