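import Vale.Agent.P192.Pump.Defs

namespace Vale.Agent.P192.Pump

open Vale.Agent.P196.Tree

/-- A model of the relators gives an action of the group.
Proof: copy the first part of `Vale.Agent.P196.Tree.finite_of_hasModel` (file
`Vale/Agent/P196/Tree/Model.lean`), with the finset `P` replaced by a set. -/
theorem exists_hom_of_model (G : Type) [Group G] (n : ℕ)
    (π : FreeGroup (Fin n) →* G) (hπ : Function.Surjective π) (R : Set (FreeGroup (Fin n)))
    (hR : Subgroup.normalClosure R = π.ker) (V : Type) (ψ : G →* Equiv.Perm V) (L : ℕ)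
    (hL : ∀ r ∈ R, r.toWord.length ≤ L) (hL2 : 2 ≤ L)
    (Z : Type) (m : Fin n × Bool → Z → Z) (P : Set Z)
    (hmodel : IsModel (letterAct π ψ) L m P) :
    ∃ Φ : G →* Equiv.Perm P, ∀ (w : List (Fin n × Bool)) (p : P),
      ((Φ (π (FreeGroup.mk w)) p : P) : Z) = wact m w p.1 := by
  classical
  obtain ⟨hmP, hrel⟩ := hmodel
  have hlinv : ∀ l : Fin n × Bool, linv (linv l) = l := by
    rintro ⟨j, b⟩
    simp [linv]
  have hminv : ∀ l, ∀ i ∈ P, m l (m (linv l) i) = i := by
    intro l i hi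
    have := hrel [l, linv l] (by simpa using hL2)
      (by intro x; simp only [wact]; exact letterAct_linv π ψ l x) i hi
    simpa only [wact] using this
  let T : Type := P
  let Pm : Fin n × Bool → Equiv.Perm T := fun l =>
    { toFun := fun i => ⟨m l i.1, hmP l i.1 i.2⟩
      invFun := fun i => ⟨m (linv l) i.1, hmP (linv l) i.1 i.2⟩
      left_inv := by
        intro i
        apply Subtype.ext
        have := hminv (linv l) i.1 i.2
        rw [hlinv] at this
        exact this
      right_inv := by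
        intro i
        apply Subtype.ext
        exact hminv l i.1 i.2 }
  let Φ : FreeGroup (Fin n) →* Equiv.Perm T := FreeGroup.lift (fun j => Pm (j, true))
  have hΦ : ∀ (w : List (Fin n × Bool)) (i : T), ((Φ (FreeGroup.mk w) i : T) : Z) = wact m w i.1 := by
    intro w
    rw [FreeGroup.lift_mk]
    induction w with
    | nil => intro i; simp [wact]
    | cons l w ih =>
      intro i
      simp only [wact, List.map_cons, List.prod_cons, Equiv.Perm.mul_apply]
      rw [← ih i]
      obtain ⟨j, b⟩ := l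
      cases b
      · rfl
      · rfl
  have hΦR : ∀ r ∈ R, Φ r = 1 := by
    intro r hr
    have hπr : π r = 1 := by
      have : r ∈ π.ker := by
        rw [← hR]
        exact Subgroup.subset_normalClosure hr
      exact this
    ext i
    have h1 : Φ r = Φ (FreeGroup.mk r.toWord) := by rw [FreeGroup.mk_toWord]
    rw [h1, hΦ]
    refine hrel r.toWord (hL r hr) ?_ i.1 i.2
    intro x
    rw [wact_letterAct, FreeGroup.mk_toWord, hπr, map_one]
    rfl
  have hker : π.ker ≤ Φ.ker := by
    rw [← hR]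
    exact Subgroup.normalClosure_le_normal (fun r hr => hΦR r hr)
  let Φbar : G →* Equiv.Perm T := π.liftOfSurjective hπ ⟨Φ, hker⟩
  have hΦbar : ∀ w, Φbar (π w) = Φ w := by
    intro w
    exact MonoidHom.liftOfRightInverse_comp_apply _ _ _ _ _
  refine ⟨Φbar, fun w p => ?_⟩
  rw [hΦbar]
  exact hΦ w p

/-- An element that shifts an injective sequence has infinite order.
Proof: let `g = (π (mk ω'))⁻¹ * π (mk ω)`.  Then `Φ g ⟨a t, _⟩ = ⟨a (t + d), _⟩` for all `t`, hence
`Φ (g ^ k) ⟨a 0, _⟩ = ⟨a (k * d), _⟩` by induction on `k`, and `g ^ k = 1` forces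
`a 0 = a (k * d)`, so `k * d = 0`. -/
theorem infinite_order (G : Type) [Group G] (n : ℕ) (π : FreeGroup (Fin n) →* G)
    (Z : Type) (m : Fin n × Bool → Z → Z) (P : Set Z) (Φ : G →* Equiv.Perm P)
    (hΦ : ∀ (w : List (Fin n × Bool)) (p : P), ((Φ (π (FreeGroup.mk w)) p : P) : Z) = wact m w p.1)
    (a b : ℕ → Z) (ha : ∀ t, a t ∈ P) (hinj : Function.Injective a) (d : ℕ) (hd : 0 < d)
    (ω ω' : List (Fin n × Bool)) (h1 : ∀ t, wact m ω (a t) = b t)
    (h2 : ∀ t, wact m ω' (a (t + d)) = b t) :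
    ∃ g : G, ∀ k, 0 < k → g ^ k ≠ 1 := by
  refine ⟨(π (FreeGroup.mk ω'))⁻¹ * π (FreeGroup.mk ω), ?_⟩
  set g : G := (π (FreeGroup.mk ω'))⁻¹ * π (FreeGroup.mk ω) with hg
  have hstep : ∀ t, Φ g ⟨a t, ha t⟩ = ⟨a (t + d), ha (t + d)⟩ := by
    intro t
    have e : Φ (π (FreeGroup.mk ω)) ⟨a t, ha t⟩ =
        Φ (π (FreeGroup.mk ω')) ⟨a (t + d), ha (t + d)⟩ := by
      apply Subtype.ext
      rw [hΦ, hΦ]
      exact (h1 t).trans (h2 t).symm
    rw [hg, map_mul, map_inv, Equiv.Perm.mul_apply, e]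
    simp
  have hpow : ∀ k : ℕ, Φ (g ^ k) ⟨a 0, ha 0⟩ = ⟨a (k * d), ha (k * d)⟩ := by
    intro k
    induction k with
    | zero => simp
    | succ k ih =>
      rw [pow_succ', map_mul, Equiv.Perm.mul_apply, ih, hstep]
      apply Subtype.ext
      simp only
      congr 1
      ring
  intro k hk h1k
  have h3 := hpow k
  rw [h1k, map_one, Equiv.Perm.one_apply] at h3
  have h4 : a 0 = a (k * d) := congrArg Subtype.val h3
  have h5 := hinj h4
  have : 0 < k * d := Nat.mul_pos hk hd
  omega

end Vale.Agent.P192.Pump
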