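import Vale.Agent.P192.Pump.Defs

namespace Vale.Agent.P192.Pump

open Vale.Agent.P196.Tree

/-- A map defined on the collar of one window by transporting words to another window. -/
lemma exists_transport {α X : Type} {C : ℕ} (act : α → X → X) (L : ℕ) (c d : Fin C → X)
    (h : ∀ (u u' : Fin C) (w w' : List α), w.length ≤ L → w'.length ≤ L →
      wact act w (c u) = wact act w' (c u') → wact act w (d u) = wact act w' (d u')) :
    ∃ θ : X → X, ∀ (u : Fin C) (w : List α), w.length ≤ L →
      θ (wact act w (c u)) = wact act w (d u) := by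
  classical
  refine ⟨fun y => if hy : ∃ (u : Fin C) (w : List α), w.length ≤ L ∧ y = wact act w (c u) then
      wact act hy.choose_spec.choose (d hy.choose) else y, ?_⟩
  intro u w hw
  have hy : ∃ (u' : Fin C) (w' : List α), w'.length ≤ L ∧
      wact act w (c u) = wact act w' (c u') := ⟨u, w, hw, rfl⟩
  simp only [dif_pos hy]
  have hs := hy.choose_spec.choose_spec
  exact (h u _ w _ hw hs.1 hs.2).symm

/-- Pigeonhole on the types of thin cuts.  See notes/P192_pump.md, section 5. -/
theorem exists_cutPair {α : Type} [Finite α] (C L : ℕ) :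
    ∃ M : ℕ, ∀ (X : Type) (act : α → X → X) (x₀ : X) (B : ℕ → Set X) (c : ℕ → Fin C → X),
      (∀ i j, i ≤ j → j ≤ M → B j ⊆ B i) →
      (∀ i ≤ M, ∀ u, c i u ∈ B i) →
      (∀ i ≤ M, ∀ l y, y ∉ B i → act l y ∈ B i → act l y ∈ Set.range (c i)) →
      (∀ i j, i < j → j ≤ M →
        (∀ y ∈ Kol act (c i) L, y ∉ B j) ∧ (∀ y ∈ Kol act (c j) L, y ∈ B i)) →
      ∃ i j, i < j ∧ j ≤ M ∧ ∃ θ θ', CutPair act L (B i) (B j) (c i) (c j) θ θ' ∧
        ∀ u v, Conn act (Lam (B i) (c i)) (mk0 x₀ (c i) u) (mk0 x₀ (c i) v) →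
          Conn act (Lam (B j) (c j)) (mk0 x₀ (c j) u) (mk0 x₀ (c j) v) := by
  classical
  have hWfin : Finite {w : List α // w.length ≤ L} := List.finite_length_le α L
  let W := {w : List α // w.length ≤ L}
  let Θ := (Fin C × W → Fin C × W → Prop) × (Fin C × W → Prop) ×
    (Option (Fin C) → Option (Fin C) → Prop)
  have hΘ : Finite Θ := inferInstance
  let _ : Fintype Θ := Fintype.ofFinite Θ
  refine ⟨Fintype.card Θ, ?_⟩
  intro X act x₀ B c hnest hwin hen hsep
  let τ : Fin (Fintype.card Θ + 1) → Θ := fun i =>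
    (fun p q => wact act p.2.1 (c i p.1) = wact act q.2.1 (c i q.1),
     fun p => wact act p.2.1 (c i p.1) ∈ B i,
     fun u v => Conn act (Lam (B i) (c i)) (mk0 x₀ (c i) u) (mk0 x₀ (c i) v))
  obtain ⟨a, b, hab, hτ⟩ := Fintype.exists_ne_map_eq_of_card_lt τ (by simp)
  -- the symmetric core
  have key : ∀ a b : Fin (Fintype.card Θ + 1), a < b → τ a = τ b →
      ∃ i j, i < j ∧ j ≤ Fintype.card Θ ∧ ∃ θ θ', CutPair act L (B i) (B j) (c i) (c j) θ θ' ∧
        ∀ u v, Conn act (Lam (B i) (c i)) (mk0 x₀ (c i) u) (mk0 x₀ (c i) v) →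
          Conn act (Lam (B j) (c j)) (mk0 x₀ (c j) u) (mk0 x₀ (c j) v) := by
    intro a b hab hτ
    have hbM : (b : ℕ) ≤ Fintype.card Θ := Nat.lt_succ_iff.mp b.2
    have habN : (a : ℕ) < b := hab
    have h1 : ∀ (u u' : Fin C) (w w' : List α), w.length ≤ L → w'.length ≤ L →
        (wact act w (c a u) = wact act w' (c a u') ↔
          wact act w (c b u) = wact act w' (c b u')) := by
      intro u u' w w' hw hw'
      have := congrFun (congrFun (congrArg Prod.fst hτ) (u, ⟨w, hw⟩)) (u', ⟨w', hw'⟩)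
      exact iff_of_eq this
    have h2 : ∀ (u : Fin C) (w : List α), w.length ≤ L →
        (wact act w (c a u) ∈ B a ↔ wact act w (c b u) ∈ B b) := by
      intro u w hw
      have := congrFun (congrArg (fun t => t.2.1) hτ) (u, ⟨w, hw⟩)
      exact iff_of_eq this
    have h3 : ∀ u v, (Conn act (Lam (B a) (c a)) (mk0 x₀ (c a) u) (mk0 x₀ (c a) v) ↔
        Conn act (Lam (B b) (c b)) (mk0 x₀ (c b) u) (mk0 x₀ (c b) v)) := by
      intro u v
      have := congrFun (congrFun (congrArg (fun t => t.2.2) hτ) u) v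
      exact iff_of_eq this
    obtain ⟨θ, hθ⟩ := exists_transport act L (c a) (c b)
      (fun u u' w w' hw hw' h => (h1 u u' w w' hw hw').1 h)
    obtain ⟨θ', hθ'⟩ := exists_transport act L (c b) (c a)
      (fun u u' w w' hw hw' h => (h1 u u' w w' hw hw').2 h)
    refine ⟨a, b, habN, hbM, θ, θ', ?_, fun u v h => (h3 u v).1 h⟩
    exact
      { sub := hnest a b habN.le hbM
        win0 := hwin a (by omega)
        win1 := hwin b hbM
        en0 := hen a (by omega)
        en1 := hen b hbM
        sep0 := (hsep a b habN hbM).1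
        sep1 := (hsep a b habN hbM).2
        th := hθ
        th' := hθ'
        side := h2 }
  rcases lt_or_gt_of_ne hab with h | h
  · exact key a b h hτ
  · exact key b a h hτ.symm

end Vale.Agent.P192.Pump
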