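import Vale.Agent.P192.Pump.Lift
import Vale.Agent.P192.Pump.ConnPump
import Vale.Agent.P192.Pump.Cross
import Vale.Agent.P192.Pump.Types

namespace Vale.Agent.P192.Pump

open Vale.Agent.P196.Tree

lemma letterAct_linv' {G V : Type} [Group G] {n : ℕ} (π : FreeGroup (Fin n) →* G)
    (ψ : G →* Equiv.Perm V) (l : Fin n × Bool) (y : V) :
    letterAct π ψ (linv l) (letterAct π ψ l y) = y := by
  obtain ⟨j, b⟩ := l
  cases b <;> simp [letterAct, linv]

/-- Master theorem: a finitely presented group with an action having a long chain of nested,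
well separated cuts with at most `C` boundary points, all crossed by one orbit, has an element of
infinite order. -/
theorem master (G : Type) [Group G] (n : ℕ) (π : FreeGroup (Fin n) →* G)
    (hπ : Function.Surjective π) (R : Set (FreeGroup (Fin n)))
    (hR : Subgroup.normalClosure R = π.ker) (L : ℕ) (hL : ∀ r ∈ R, r.toWord.length ≤ L)
    (hL2 : 2 ≤ L) (C : ℕ) :
    ∃ M : ℕ, ∀ (X : Type) (ψ : G →* Equiv.Perm X) (x₀ : X) (B : ℕ → Set X) (c : ℕ → Fin C → X),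
      (∀ i j, i ≤ j → j ≤ M → B j ⊆ B i) → x₀ ∉ B 0 →
      (∀ i ≤ M, ∀ u, c i u ∈ B i) →
      (∀ i ≤ M, ∀ l y, y ∉ B i → letterAct π ψ l y ∈ B i → letterAct π ψ l y ∈ Set.range (c i)) →
      (∀ i j, i < j → j ≤ M →
        (∀ y ∈ Kol (letterAct π ψ) (c i) L, y ∉ B j) ∧
        (∀ y ∈ Kol (letterAct π ψ) (c j) L, y ∈ B i)) →
      (∃ g, ψ g x₀ ∈ B M) →
      ∃ g : G, ∀ k, 0 < k → g ^ k ≠ 1 := by
  obtain ⟨M, hM⟩ := exists_cutPair (α := Fin n × Bool) C L
  refine ⟨M, ?_⟩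
  intro X ψ x₀ B c hnest hx₀ hwin hen hsep ⟨g₀, hg₀⟩
  obtain ⟨i, j, hij, hjM, θ, θ', hcut, hT⟩ := hM X (letterAct π ψ) x₀ B c hnest hwin hen hsep
  have hL1 : 1 ≤ L := by omega
  have hx₀i : x₀ ∉ B i := fun h => hx₀ (hnest 0 i (Nat.zero_le _) (by omega) h)
  have hinv := letterAct_linv' π ψ
  -- the orbit enters `B i`
  obtain ⟨w₀, rfl⟩ := hπ g₀
  have hconn : Conn (letterAct π ψ) Set.univ x₀ (ψ (π w₀) x₀) := by
    have := conn_wact (letterAct π ψ) w₀.toWord x₀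
    rwa [wact_letterAct, FreeGroup.mk_toWord] at this
  obtain ⟨u₀, hu₀⟩ := first_entry (B i) (c i) (hen i (by omega)) x₀ _ hx₀i
    (hnest i M (by omega) le_rfl hg₀) hconn
  have hpump := conn_pump hcut hL1 linv hinv x₀ hx₀i hT C none (some u₀) hu₀
  have hall : Conn (pact (letterAct π ψ) (B i) (B j) θ θ') (PSet (B i) (B j)) (x₀, 0)
      (c i u₀, C) := Conn.mono (fun z hz => hz.1) hpump
  obtain ⟨u, k, d, ω, ω', y, hd, h1, h2⟩ := exists_shift hcut hL1 linv hinv x₀ hx₀i u₀ hall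
  obtain ⟨Φ, hΦ⟩ := exists_hom_of_model G n π hπ R hR X ψ L hL hL2 (X × ℕ) _ _
    (pump_isModel hcut hL1 linv hinv)
  refine infinite_order G n π (X × ℕ) _ _ Φ hΦ (fun t => (c i u, k + t))
    (fun t => (y.1, y.2 + t)) ?_ ?_ d hd ω ω' h1 h2
  · intro t
    refine ⟨hcut.sep0 _ ⟨u, [], by simp, rfl⟩, fun _ => hcut.win0 u⟩
  · intro s t hst
    simpa using hst

end Vale.Agent.P192.Pump
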