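import Mathlib

namespace Vale.Agent.P192.Pump

/-- The ball of radius `r` around `x` in the Schreier graph of the action of `G` on `X` with
respect to the set `S` of group elements: the points reached from `x` by applying at most `r`
elements of `S` or inverses of elements of `S`. -/
def sball {G X : Type} [Group G] [MulAction G X] (S : Set G) (x : X) : ℕ → Set X
  | 0 => {x}
  | r + 1 => sball S x r ∪ {y | ∃ s ∈ S, ∃ z ∈ sball S x r, y = s • z ∨ y = s⁻¹ • z}

/-- Membership in the topological full group of the homeomorphism `φ`: there is a finite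
clopen decomposition of the space such that `g` agrees with a power of `φ` on each piece. -/
def InFullGroup {X : Type} [TopologicalSpace X] (φ g : X ≃ₜ X) : Prop :=
  ∃ (k : ℕ) (U : Fin k → Set X) (n : Fin k → ℤ),
    (∀ i, IsClopen (U i)) ∧ (∀ i j, i ≠ j → Disjoint (U i) (U j)) ∧ (⋃ i, U i) = Set.univ ∧
    ∀ i, ∀ x ∈ U i, g x = (φ ^ n i) x

end Vale.Agent.P192.Pump
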