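import Vale.Agent.P192.Pump.Defs

namespace Vale.Agent.P192.Pump

open Vale.Agent.P196.Tree

variable {α X : Type} {C : ℕ} {act : α → X → X} {L : ℕ} {B0 B1 : Set X} {c0 c1 : Fin C → X}
  {θ θ' : X → X}

lemma Kol.mono {c : Fin C → X} {j j' : ℕ} (hjj : j ≤ j') : Kol act c j ⊆ Kol act c j' := by
  rintro y ⟨u, w, hw, rfl⟩
  exact ⟨u, w, hw.trans hjj, rfl⟩

lemma Kol.step {c : Fin C → X} {j : ℕ} {y : X} (hy : y ∈ Kol act c j) (l : α) :
    act l y ∈ Kol act c (j + 1) := by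
  obtain ⟨u, w, hw, rfl⟩ := hy
  exact ⟨u, l :: w, by simpa using hw, rfl⟩

lemma Kol.win {c : Fin C → X} (u : Fin C) (j : ℕ) : c u ∈ Kol act c j :=
  ⟨u, [], by simp, rfl⟩

lemma ret_of_mem {y : X} {k : ℕ} (hy : y ∈ B1) :
    ret B0 B1 θ θ' (y, k) = (θ' y, k + 1) := by
  unfold ret
  simp [hy]

lemma ret_of_out {y : X} {k : ℕ} (hy1 : y ∉ B1) (hy0 : y ∉ B0) (hk : 1 ≤ k) :
    ret B0 B1 θ θ' (y, k) = (θ y, k - 1) := by
  unfold ret
  simp [hy1, hy0, hk]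

lemma ret_of_PSet {z : X × ℕ} (hz : z ∈ PSet B0 B1) :
    ret B0 B1 θ θ' z = z := by
  obtain ⟨h1, h2⟩ := hz
  unfold ret
  rw [if_neg h1, if_neg]
  rintro ⟨h3, h4⟩
  exact h3 (h2 h4)

/-- The charts `y ↦ ret (y, k)` are equivariant.  See notes/P192_pump.md, section 2. -/
theorem pact_ret (h : CutPair act L B0 B1 c0 c1 θ θ') (hL : 1 ≤ L) (l : α) (y : X) (k : ℕ)
    (hy : (y, k) ∈ PSet B0 B1 ∨ (y ∈ Kol act c1 (L - 1) ∧ y ∈ B1) ∨
      (1 ≤ k ∧ y ∈ Kol act c0 (L - 1) ∧ y ∉ B0)) :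
    pact act B0 B1 θ θ' l (ret B0 B1 θ θ' (y, k)) = ret B0 B1 θ θ' (act l y, k) := by
  rcases hy with hy | ⟨hy, hyB⟩ | ⟨hk, hy, hyB⟩
  · rw [ret_of_PSet hy]
    rfl
  · obtain ⟨u, w, hw, rfl⟩ := hy
    have hwL : w.length ≤ L := by omega
    have hlw : (l :: w).length ≤ L := by simp only [List.length_cons]; omega
    rw [ret_of_mem hyB, h.th' u w hwL]
    have ea : act l (wact act w (c0 u)) = wact act (l :: w) (c0 u) := rfl
    have eb : act l (wact act w (c1 u)) = wact act (l :: w) (c1 u) := rfl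
    show ret B0 B1 θ θ' (act l (wact act w (c0 u)), k + 1) = _
    rw [ea, eb]
    have ha1 : wact act (l :: w) (c0 u) ∉ B1 := h.sep0 _ ⟨u, l :: w, hlw, rfl⟩
    have hb0 : wact act (l :: w) (c1 u) ∈ B0 := h.sep1 _ ⟨u, l :: w, hlw, rfl⟩
    have hside := h.side u (l :: w) hlw
    by_cases hb : wact act (l :: w) (c1 u) ∈ B1
    · have ha0 := hside.mpr hb
      rw [ret_of_mem hb, h.th' u _ hlw]
      exact ret_of_PSet ⟨ha1, fun _ => ha0⟩
    · have ha0 : wact act (l :: w) (c0 u) ∉ B0 := fun hh => hb (hside.mp hh)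
      rw [ret_of_out ha1 ha0 (by omega), h.th u _ hlw]
      rw [ret_of_PSet (z := (wact act (l :: w) (c1 u), k)) ⟨hb, fun _ => hb0⟩]
      rfl
  · obtain ⟨u, w, hw, rfl⟩ := hy
    have hwL : w.length ≤ L := by omega
    have hlw : (l :: w).length ≤ L := by simp only [List.length_cons]; omega
    have hy1 : wact act w (c0 u) ∉ B1 := fun hh => hyB (h.sub hh)
    rw [ret_of_out hy1 hyB hk, h.th u w hwL]
    have ea : act l (wact act w (c0 u)) = wact act (l :: w) (c0 u) := rfl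
    have eb : act l (wact act w (c1 u)) = wact act (l :: w) (c1 u) := rfl
    show ret B0 B1 θ θ' (act l (wact act w (c1 u)), k - 1) = _
    rw [ea, eb]
    have ha1 : wact act (l :: w) (c0 u) ∉ B1 := h.sep0 _ ⟨u, l :: w, hlw, rfl⟩
    have hb0 : wact act (l :: w) (c1 u) ∈ B0 := h.sep1 _ ⟨u, l :: w, hlw, rfl⟩
    have hside := h.side u (l :: w) hlw
    by_cases ha : wact act (l :: w) (c0 u) ∈ B0
    · have hb := hside.mp ha
      rw [ret_of_mem hb, h.th' u _ hlw]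
      rw [ret_of_PSet (z := (wact act (l :: w) (c0 u), k)) ⟨ha1, fun _ => ha⟩]
      have : k - 1 + 1 = k := by omega
      rw [this]
    · have hb : wact act (l :: w) (c1 u) ∉ B1 := fun hh => ha (hside.mpr hh)
      rw [ret_of_out ha1 ha hk, h.th u _ hlw]
      exact ret_of_PSet ⟨hb, fun _ => hb0⟩

/-- The product action on `X × ℕ`. -/
def prodAct (act : α → X → X) (l : α) (z : X × ℕ) : X × ℕ := (act l z.1, z.2)

lemma wact_prodAct (w : List α) (z : X × ℕ) :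
    wact (prodAct act) w z = (wact act w z.1, z.2) := by
  induction w with
  | nil => rfl
  | cons l w ih =>
    simp only [wact]
    rw [ih]
    rfl

/-- The domains of the charts. -/
def YY (act : α → X → X) (L : ℕ) (B0 B1 : Set X) (c0 c1 : Fin C → X) (j : ℕ) : Set (X × ℕ) :=
  {z | j ≤ L ∧ (z ∈ PSet B0 B1 ∨ (z.1 ∈ Kol act c1 (L - j) ∧ z.1 ∈ B1) ∨
    (1 ≤ z.2 ∧ z.1 ∈ Kol act c0 (L - j) ∧ z.1 ∉ B0))}

lemma YY_mono (j : ℕ) : YY act L B0 B1 c0 c1 (j + 1) ⊆ YY act L B0 B1 c0 c1 j := by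
  rintro z ⟨hj, hz⟩
  refine ⟨by omega, ?_⟩
  rcases hz with hz | ⟨hz, hzB⟩ | ⟨hk, hz, hzB⟩
  · exact Or.inl hz
  · exact Or.inr (Or.inl ⟨Kol.mono (by omega) hz, hzB⟩)
  · exact Or.inr (Or.inr ⟨hk, Kol.mono (by omega) hz, hzB⟩)

lemma YY_step (h : CutPair act L B0 B1 c0 c1 θ θ') (inv : α → α)
    (hinv : ∀ l y, act (inv l) (act l y) = y) (j : ℕ) (l : α) (z : X × ℕ)
    (hz : z ∈ YY act L B0 B1 c0 c1 (j + 1)) : prodAct act l z ∈ YY act L B0 B1 c0 c1 j := by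
  obtain ⟨y, k⟩ := z
  obtain ⟨hj, hz⟩ := hz
  refine ⟨by omega, ?_⟩
  show (act l y, k) ∈ PSet B0 B1 ∨ (act l y ∈ Kol act c1 (L - j) ∧ act l y ∈ B1) ∨
    (1 ≤ k ∧ act l y ∈ Kol act c0 (L - j) ∧ act l y ∉ B0)
  have e1 : L - (j + 1) + 1 = L - j := by omega
  rcases hz with ⟨hy1, hy0⟩ | ⟨hz, hzB⟩ | ⟨hk, hz, hzB⟩
  · simp only at hy1 hy0
    by_cases ha1 : act l y ∈ B1
    · obtain ⟨u, hu⟩ := h.en1 l y hy1 ha1
      refine Or.inr (Or.inl ⟨?_, ha1⟩)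
      rw [← hu]
      exact Kol.win u _
    · by_cases hk : 1 ≤ k ∧ act l y ∉ B0
      · obtain ⟨hk, ha0⟩ := hk
        have hyB := hy0 hk
        have := h.en0 (inv l) (act l y) ha0 (by rw [hinv]; exact hyB)
        rw [hinv] at this
        obtain ⟨u, hu⟩ := this
        refine Or.inr (Or.inr ⟨hk, ?_, ha0⟩)
        rw [← hu]
        exact Kol.mono (by omega) (Kol.step (Kol.win u 0) l)
      · refine Or.inl ⟨ha1, fun hk1 => ?_⟩
        by_contra hh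
        exact hk ⟨hk1, hh⟩
  · simp only at hz hzB
    have ha : act l y ∈ Kol act c1 (L - j) := e1 ▸ Kol.step hz l
    by_cases ha1 : act l y ∈ B1
    · exact Or.inr (Or.inl ⟨ha, ha1⟩)
    · exact Or.inl ⟨ha1, fun _ => h.sep1 _ (Kol.mono (by omega) ha)⟩
  · simp only at hz hzB hk
    have ha : act l y ∈ Kol act c0 (L - j) := e1 ▸ Kol.step hz l
    by_cases ha0 : act l y ∈ B0
    · exact Or.inl ⟨h.sep0 _ (Kol.mono (by omega) ha), fun _ => ha0⟩
    · exact Or.inr (Or.inr ⟨hk, ha, ha0⟩)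

lemma ret_mem_PSet (h : CutPair act L B0 B1 c0 c1 θ θ') (z : X × ℕ)
    (hz : z ∈ YY act L B0 B1 c0 c1 0) : ret B0 B1 θ θ' z ∈ PSet B0 B1 := by
  obtain ⟨y, k⟩ := z
  obtain ⟨-, hz⟩ := hz
  rcases hz with hz | ⟨hz, hzB⟩ | ⟨hk, hz, hzB⟩
  · rw [ret_of_PSet hz]
    exact hz
  · simp only at hz hzB
    obtain ⟨u, w, hw, rfl⟩ := hz
    have hwL : w.length ≤ L := by omega
    rw [ret_of_mem hzB, h.th' u w hwL]
    exact ⟨h.sep0 _ ⟨u, w, hwL, rfl⟩, fun _ => (h.side u w hwL).mpr hzB⟩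
  · simp only at hz hzB hk
    obtain ⟨u, w, hw, rfl⟩ := hz
    have hwL : w.length ≤ L := by omega
    rw [ret_of_out (fun hh => hzB (h.sub hh)) hzB hk, h.th u w hwL]
    exact ⟨fun hh => hzB ((h.side u w hwL).mpr hh), fun _ => h.sep1 _ ⟨u, w, hwL, rfl⟩⟩

/-- The pumped space is a model.  See notes/P192_pump.md, section 2 (use
`Vale.Agent.P196.Tree.glue` on `X × ℕ` with the product action and `r = ret`, exactly as in
`Vale.Agent.P196.Tree.twoCut`). -/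
theorem pump_isModel (h : CutPair act L B0 B1 c0 c1 θ θ') (hL : 1 ≤ L) (inv : α → α)
    (hinv : ∀ l y, act (inv l) (act l y) = y) :
    IsModel act L (pact act B0 B1 θ θ') (PSet B0 B1) := by
  have hP : ∀ j, j ≤ L → PSet B0 B1 ⊆ YY act L B0 B1 c0 c1 j := fun j hj z hz => ⟨hj, Or.inl hz⟩
  constructor
  · intro l x hx
    exact ret_mem_PSet h _ (YY_step h inv hinv 0 l x (hP 1 hL hx))
  · intro w hw hwx x hx
    have key := glue (prodAct act) (ret B0 B1 θ θ') (YY act L B0 B1 c0 c1)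
      (YY_step h inv hinv) YY_mono (by
        rintro l ⟨y, k⟩ ⟨-, hy⟩
        exact pact_ret h hL l y k hy) w x (hP _ hw hx)
    rw [ret_of_PSet hx, wact_prodAct, hwx] at key
    have e : ((x.1, x.2) : X × ℕ) = x := rfl
    rw [e, ret_of_PSet hx] at key
    exact key

end Vale.Agent.P192.Pump
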