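import Vale.Agent.P192.Pump.Master

namespace Vale.Agent.P192.Pump

open Vale.Agent.P196.Tree

/-- The ball of radius `r` around `x₀` for the word metric of the letters. -/
def LBall {α X : Type} (act : α → X → X) (x₀ : X) (r : ℕ) : Set X :=
  {x | ∃ w : List α, w.length ≤ r ∧ x = wact act w x₀}

section ball

variable {α X : Type} (act : α → X → X) (x₀ : X)

lemma LBall_mono {r r' : ℕ} (h : r ≤ r') : LBall act x₀ r ⊆ LBall act x₀ r' := by
  rintro x ⟨w, hw, rfl⟩
  exact ⟨w, hw.trans h, rfl⟩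

lemma base_mem_LBall (r : ℕ) : x₀ ∈ LBall act x₀ r := ⟨[], by simp, rfl⟩

lemma act_mem_LBall {r : ℕ} {y : X} (l : α) (hy : y ∈ LBall act x₀ r) :
    act l y ∈ LBall act x₀ (r + 1) := by
  obtain ⟨w, hw, rfl⟩ := hy
  exact ⟨l :: w, by simpa using hw, rfl⟩

lemma wact_mem_LBall {r : ℕ} {y : X} (w : List α) (hy : y ∈ LBall act x₀ r) :
    wact act w y ∈ LBall act x₀ (r + w.length) := by
  induction w with
  | nil => simpa [wact] using hy
  | cons l w ih =>
    have := act_mem_LBall act x₀ l ih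
    simpa [wact, add_assoc] using this

lemma mem_LBall_of_wact (inv : α → α) (hinv : ∀ l y, act (inv l) (act l y) = y) {y : X}
    (w : List α) : ∀ {r : ℕ}, wact act w y ∈ LBall act x₀ r → y ∈ LBall act x₀ (r + w.length) := by
  induction w with
  | nil =>
    intro r hy
    simpa [wact] using hy
  | cons l w ih =>
    intro r hy
    have h1 := act_mem_LBall act x₀ (inv l) hy
    simp only [wact] at h1
    rw [hinv] at h1
    have h2 := ih h1
    have e : r + 1 + w.length = r + (l :: w).length := by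
      simp only [List.length_cons]
      omega
    rwa [e] at h2

lemma exists_sphere_point (w : List α) {r : ℕ} (h : wact act w x₀ ∉ LBall act x₀ r) :
    ∃ x ∈ LBall act x₀ (r + 1), x ∉ LBall act x₀ r := by
  induction w with
  | nil => exact absurd (base_mem_LBall act x₀ r) h
  | cons l w ih =>
    by_cases hw : wact act w x₀ ∈ LBall act x₀ r
    · exact ⟨_, act_mem_LBall act x₀ l hw, h⟩
    · exact ih hw

end ball

/-- A nonempty set inside a finset with at most `C` elements is enumerated by `Fin C`. -/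
lemma exists_enum {X : Type} (S : Set X) (t : Finset X) (C : ℕ) (ht : t.card ≤ C)
    (hS : ∀ x ∈ S, x ∈ t) (hne : S.Nonempty) : ∃ c : Fin C → X, Set.range c = S := by
  classical
  obtain ⟨x0, hx0⟩ := hne
  set s : Finset X := t.filter (fun x => x ∈ S) with hs
  have hcard : s.card ≤ C := (Finset.card_filter_le _ _).trans ht
  have hsS : ∀ z ∈ s, z ∈ S := fun z hz => (Finset.mem_filter.1 hz).2
  refine ⟨fun u => if h : u.val < s.card then ((s.equivFin.symm ⟨u.val, h⟩ : s) : X) else x0, ?_⟩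
  ext y
  constructor
  · rintro ⟨u, rfl⟩
    by_cases h : u.val < s.card
    · simp only [dif_pos h]
      exact hsS _ (s.equivFin.symm ⟨u.val, h⟩).2
    · simp only [dif_neg h]
      exact hx0
  · intro hy
    have hys : y ∈ s := by
      rw [hs, Finset.mem_filter]
      exact ⟨hS y hy, hy⟩
    set k := s.equivFin ⟨y, hys⟩ with hk
    refine ⟨⟨k.val, lt_of_lt_of_le k.2 hcard⟩, ?_⟩
    simp only [dif_pos k.2]
    have : s.equivFin.symm ⟨k.val, k.2⟩ = ⟨y, hys⟩ := by
      rw [hk]
      simp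
    rw [this]

/-- Master theorem for spheres.  See notes/P192_pump.md, section 6. -/
theorem sphere_master (G : Type) [Group G] (n : ℕ) (π : FreeGroup (Fin n) →* G)
    (hπ : Function.Surjective π) (R : Set (FreeGroup (Fin n)))
    (hR : Subgroup.normalClosure R = π.ker) (L : ℕ) (hL : ∀ r ∈ R, r.toWord.length ≤ L)
    (hL2 : 2 ≤ L) (C : ℕ) :
    ∃ M : ℕ, ∀ (X : Type) (ψ : G →* Equiv.Perm X) (x₀ : X) (r : ℕ → ℕ),
      (∀ i, r i + L + 1 ≤ r (i + 1)) →
      (∀ i ≤ M, ∃ t : Finset X, t.card ≤ C ∧ ∀ x ∈ LBall (letterAct π ψ) x₀ (r i + 1),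
        x ∉ LBall (letterAct π ψ) x₀ (r i) → x ∈ t) →
      (∃ x ∈ LBall (letterAct π ψ) x₀ (r M + 1), x ∉ LBall (letterAct π ψ) x₀ (r M)) →
      ∃ g : G, ∀ k, 0 < k → g ^ k ≠ 1 := by
  classical
  obtain ⟨M, hM⟩ := master G n π hπ R hR L hL hL2 C
  refine ⟨M, ?_⟩
  intro X ψ x₀ r hr hthin ⟨xM, hxM1, hxM2⟩
  set act := letterAct π ψ with hact
  have hinv : ∀ l y, act (linv l) (act l y) = y := letterAct_linv' π ψ
  -- growth of the radii
  have hlt : ∀ i j, i < j → r i + L + 1 ≤ r j := by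
    intro i j hij
    induction j with
    | zero => omega
    | succ j ih =>
      rcases Nat.lt_succ_iff_lt_or_eq.1 hij with h | h
      · have := ih h
        have := hr j
        omega
      · subst h
        exact hr i
  have hmono : ∀ i j, i ≤ j → r i ≤ r j := by
    intro i j hij
    rcases Nat.lt_or_eq_of_le hij with h | h
    · have := hlt i j h
      omega
    · rw [h]
  -- the spheres
  let S : ℕ → Set X := fun i => {x | x ∈ LBall act x₀ (r i + 1) ∧ x ∉ LBall act x₀ (r i)}
  have hSne : ∀ i ≤ M, (S i).Nonempty := by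
    intro i hi
    obtain ⟨w, -, rfl⟩ := hxM1
    have : wact act w x₀ ∉ LBall act x₀ (r i) :=
      fun h => hxM2 (LBall_mono act x₀ (hmono i M hi) h)
    obtain ⟨x, h1, h2⟩ := exists_sphere_point act x₀ w this
    exact ⟨x, h1, h2⟩
  have henum : ∀ i, ∃ c : Fin C → X, i ≤ M → Set.range c = S i := by
    intro i
    by_cases hi : i ≤ M
    · obtain ⟨t, ht, hts⟩ := hthin i hi
      obtain ⟨c, hc⟩ := exists_enum (S i) t C ht (fun x hx => hts x hx.1 hx.2) (hSne i hi)
      exact ⟨c, fun _ => hc⟩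
    · exact ⟨fun _ => x₀, fun h => absurd h hi⟩
  choose c hc using henum
  have hcS : ∀ i ≤ M, ∀ u, c i u ∈ S i := by
    intro i hi u
    rw [← hc i hi]
    exact ⟨u, rfl⟩
  refine hM X ψ x₀ (fun i => (LBall act x₀ (r i))ᶜ) c ?_ ?_ ?_ ?_ ?_ ?_
  · intro i j hij _ x hx hx'
    exact hx (LBall_mono act x₀ (hmono i j hij) hx')
  · intro h
    exact h (base_mem_LBall act x₀ _)
  · intro i hi u
    exact (hcS i hi u).2
  · intro i hi l y hy hy'
    have hy1 : y ∈ LBall act x₀ (r i) := by
      by_contra h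
      exact hy h
    rw [hc i hi]
    exact ⟨act_mem_LBall act x₀ l hy1, hy'⟩
  · intro i j hij hj
    have hrij := hlt i j hij
    constructor
    · rintro y ⟨u, w, hw, rfl⟩ hy
      apply hy
      have h1 := wact_mem_LBall act x₀ w (hcS i (by omega) u).1
      exact LBall_mono act x₀ (by omega) h1
    · rintro y ⟨u, w, hw, rfl⟩ hy
      have h1 := mem_LBall_of_wact act x₀ linv hinv w hy
      exact (hcS j hj u).2 (LBall_mono act x₀ (by omega) h1)
  · obtain ⟨w, -, rfl⟩ := hxM1
    refine ⟨π (FreeGroup.mk w), ?_⟩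
    rw [← wact_letterAct]
    exact hxM2

end Vale.Agent.P192.Pump
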