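import Vale.Agent.P192.Pump.Master
import Vale.Agent.P192.Pump.Bounded
import Vale.Agent.P192.Pump.Sphere
import Vale.Agent.P196.Tree.Count

namespace Vale.Agent.P192.Pump

open Vale.Agent.P196.Tree

/-- Points at word distance at most `|w|` from a point of the collar of radius `N` of `v` lie in the
collar of radius `N + |w| * N`. -/
lemma near_wact {α V : Type} {p : V → V} (act : α → V → V) (N : ℕ)
    (hN : ∀ l x, Near p N x (act l x)) (v z : V) (hz : Near p N z v) (w : List α) :
    Near p (N + w.length * N) (wact act w z) v := by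
  induction w with
  | nil => simpa [wact] using hz
  | cons l w ih =>
    have h := near_trans ih (hN l (wact act w z))
    have e : N + w.length * N + N = N + (l :: w).length * N := by
      simp only [List.length_cons]
      ring
    rw [e] at h
    exact h

/-- Key lemma: a long geodesic descent inside one orbit produces an element of infinite order. -/
lemma tree_key (V : Type) (p : V → V) (h : V → ℤ) (hp : ∀ v, h (p v) = h v + 1) (Δ : ℕ)
    (hΔ : ∀ v, ∃ t : Finset V, t.card ≤ Δ ∧ ∀ w, p w = v → w ∈ t)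
    (G : Type) [Group G] (n : ℕ) (π : FreeGroup (Fin n) →* G)
    (ψ : G →* Equiv.Perm V) (L N M : ℕ)
    (hN : ∀ l x, Near p N x (letterAct π ψ l x))
    (hM : ∀ (X : Type) (ψ : G →* Equiv.Perm X) (x₀ : X) (B : ℕ → Set X)
      (c : ℕ → Fin ((N + 1) * (Δ + 1) ^ N) → X),
      (∀ i j, i ≤ j → j ≤ M → B j ⊆ B i) → x₀ ∉ B 0 →
      (∀ i ≤ M, ∀ u, c i u ∈ B i) →
      (∀ i ≤ M, ∀ l y, y ∉ B i → letterAct π ψ l y ∈ B i → letterAct π ψ l y ∈ Set.range (c i)) →
      (∀ i j, i < j → j ≤ M →
        (∀ y ∈ Kol (letterAct π ψ) (c i) L, y ∉ B j) ∧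
        (∀ y ∈ Kol (letterAct π ψ) (c j) L, y ∈ B i)) →
      (∃ g, ψ g x₀ ∈ B M) →
      ∃ g : G, ∀ k, 0 < k → g ^ k ≠ 1)
    (x₀ : V) (g : G) (b : ℕ) (hb : (M + 1) * ((L + 1) * N + 1) < b)
    (hmin : ∀ b' < b, ∀ a', p^[a'] x₀ ≠ p^[b'] (ψ g x₀)) :
    ∃ g : G, ∀ k, 0 < k → g ^ k ≠ 1 := by
  classical
  set y₀ := ψ g x₀ with hy₀
  set K : ℕ := (L + 1) * N + 1 with hK
  set act := letterAct π ψ with hact
  let u : ℕ → V := fun i => p^[b - (i + 1) * K] y₀
  have hle : ∀ i ≤ M, (i + 1) * K < b := by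
    intro i hi
    have : (i + 1) * K ≤ (M + 1) * K := Nat.mul_le_mul_right _ (by omega)
    omega
  -- the vertices `u i` form a descending chain
  have hchain : ∀ i d, i + d ≤ M → p^[d * K] (u (i + d)) = u i := by
    intro i d hid
    show p^[d * K] (p^[b - (i + d + 1) * K] y₀) = p^[b - (i + 1) * K] y₀
    rw [iter_add]
    congr 1
    have h1 := hle (i + d) hid
    have h2 : (i + d + 1) * K = (i + 1) * K + d * K := by ring
    omega
  let W : ℕ → Set V := fun i => {y | Below p (u i) y ∧ Near p N y (u i)}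
  have henum : ∀ i, ∃ c : Fin ((N + 1) * (Δ + 1) ^ N) → V, Set.range c = W i := by
    intro i
    obtain ⟨t, ht, hts⟩ := collar_count p Δ hΔ N (u i)
    exact exists_enum (W i) t _ ht (fun x hx => hts x hx.2)
      ⟨u i, below_refl _, 0, 0, Nat.zero_le _, Nat.zero_le _, rfl⟩
  choose c hc using henum
  have hcW : ∀ i v, c i v ∈ W i := by
    intro i v
    rw [← hc i]
    exact ⟨v, rfl⟩
  have hkol : ∀ i, ∀ y ∈ Kol act (c i) L, Near p ((L + 1) * N) y (u i) := by
    rintro i y ⟨v, w, hw, rfl⟩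
    refine near_mono ?_ (near_wact act N hN (u i) (c i v) (hcW i v).2 w)
    have : w.length * N ≤ L * N := Nat.mul_le_mul_right _ hw
    have e : (L + 1) * N = N + L * N := by ring
    omega
  refine hM V ψ x₀ (fun i => {y | Below p (u i) y}) c ?_ ?_ ?_ ?_ ?_ ?_
  · intro i j hij hj y hy
    obtain ⟨d, rfl⟩ := Nat.exists_eq_add_of_le hij
    exact below_trans ⟨d * K, hchain i d hj⟩ hy
  · rintro ⟨k, hk⟩
    have h0 := hle 0 (Nat.zero_le _)
    refine hmin (b - (0 + 1) * K) ?_ k hk
    have : 0 < (0 + 1) * K := by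
      rw [hK]
      omega
    omega
  · intro i _ v
    exact (hcW i v).1
  · intro i _ l y hy hy'
    rw [hc i]
    exact ⟨hy', enter_collar hy hy' (hN l y)⟩
  · intro i j hij hj
    obtain ⟨d, rfl⟩ : ∃ d, j = i + (d + 1) := ⟨j - i - 1, by omega⟩
    have hch := hchain i (d + 1) hj
    constructor
    · intro y hy hy'
      have h1 := (near_level hp (hkol i y hy)).1
      have h2 := below_level hp hy'
      have h3 : h (u i) = h (u (i + (d + 1))) + ((d + 1) * K : ℕ) := by
        rw [← hch, h_iter hp]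
      have h4 : (L + 1) * N + 1 ≤ (d + 1) * K := by
        have : 1 * K ≤ (d + 1) * K := Nat.mul_le_mul_right _ (by omega)
        omega
      have h5 : (((L + 1) * N : ℕ) : ℤ) + 1 ≤ (((d + 1) * K : ℕ) : ℤ) := by exact_mod_cast h4
      linarith
    · intro y hy
      have h1 := near_below_top (hkol _ y hy)
      refine below_trans ⟨(d + 1) * K - (L + 1) * N, ?_⟩ h1
      rw [iter_add, ← hch]
      congr 1
      have : 1 * K ≤ (d + 1) * K := Nat.mul_le_mul_right _ (by omega)
      omega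
  · exact ⟨g, below_iter _ _⟩

/-- Graded-forest version: a finitely presented periodic group acting faithfully by
bounded-displacement permutations on a graded forest of bounded degree is finite.
See notes/P192_pump.md, section 9. -/
theorem torsion_core_tree (V : Type) (p : V → V) (h : V → ℤ) (hp : ∀ v, h (p v) = h v + 1) (Δ : ℕ)
    (hΔ : ∀ v, ∃ t : Finset V, t.card ≤ Δ ∧ ∀ w, p w = v → w ∈ t)
    (G : Type) [Group G] (hfp : Group.IsFinitelyPresented G) (htors : IsMulTorsion G)
    (ψ : G →* Equiv.Perm V) (hψ : Function.Injective ψ)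
    (hb : ∀ g, ∃ N : ℕ, ∀ x, Near p N x (ψ g x)) : Finite G := by
  classical
  obtain ⟨n, π, hπ, R, hRfin, hR⟩ := hfp.out
  have hb' := hb
  -- displacement bound for the letters
  choose Nf hNf using hb
  let elt : Fin n × Bool → G := fun l => cond l.2 (π (FreeGroup.of l.1)) (π (FreeGroup.of l.1))⁻¹
  have helt : ∀ l y, letterAct π ψ l y = ψ (elt l) y := by
    rintro ⟨j, b⟩ y
    cases b <;> simp [letterAct, elt]
  obtain ⟨N, hNub⟩ := (Set.finite_range (fun l : Fin n × Bool => Nf (elt l))).bddAbove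
  have hN : ∀ l x, Near p N x (letterAct π ψ l x) := by
    intro l x
    rw [helt]
    exact near_mono (hNub ⟨l, rfl⟩) (hNf _ x)
  -- bound on the length of the relators
  obtain ⟨L₀, hL₀⟩ := (hRfin.image (fun r => r.toWord.length)).bddAbove
  let L : ℕ := max L₀ 2
  have hL : ∀ r ∈ R, r.toWord.length ≤ L := by
    intro r hr
    exact le_trans (hL₀ ⟨r, hr, rfl⟩) (le_max_left _ _)
  have hL2 : 2 ≤ L := le_max_right _ _
  obtain ⟨M, hM⟩ := master G n π hπ R hR L hL hL2 ((N + 1) * (Δ + 1) ^ N)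
  set D : ℕ := (M + 1) * ((L + 1) * N + 1) with hD
  have hkey : ∀ (x₀ : V) (g : G) (b : ℕ), D < b →
      (∀ b' < b, ∀ a', p^[a'] x₀ ≠ p^[b'] (ψ g x₀)) → False := by
    intro x₀ g b hDb hmin
    obtain ⟨g', hg'⟩ := tree_key V p h hp Δ hΔ G n π ψ L N M hN hM x₀ g b hDb hmin
    obtain ⟨k, hk, hgk⟩ := isOfFinOrder_iff_pow_eq_one.1 (htors g')
    exact hg' k hk hgk
  have hnear : ∀ g x, Near p D x (ψ g x) := by
    intro g x
    have hex : ∃ b a : ℕ, p^[a] x = p^[b] (ψ g x) := by
      obtain ⟨a, b, -, -, e⟩ := hNf g x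
      exact ⟨b, a, e⟩
    obtain ⟨a, e⟩ := Nat.find_spec hex
    set b := Nat.find hex with hbdef
    have hminb : ∀ b' < b, ∀ a', p^[a'] x ≠ p^[b'] (ψ g x) := by
      intro b' hb' a' e'
      exact Nat.find_min hex hb' ⟨a', e'⟩
    have hlev : h x + a = h (ψ g x) + b := by
      have := congrArg h e
      rwa [h_iter hp, h_iter hp] at this
    have hmina : ∀ a' < a, ∀ b', p^[b'] (ψ g x) ≠ p^[a'] x := by
      intro a' ha' b' e'
      have h1 := congrArg h e'
      rw [h_iter hp, h_iter hp] at h1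
      have h2 : (a' : ℤ) < a := by exact_mod_cast ha'
      have h3 : (b' : ℤ) < b := by linarith
      exact hminb b' (by exact_mod_cast h3) a' e'.symm
    by_cases hbD : D < b
    · exact (hkey x g b hbD hminb).elim
    by_cases haD : D < a
    · exfalso
      refine hkey (ψ g x) g⁻¹ a haD ?_
      have hx : ψ g⁻¹ (ψ g x) = x := by
        rw [← Equiv.Perm.mul_apply, ← map_mul, inv_mul_cancel, map_one]
        rfl
      rw [hx]
      exact hmina
    · exact ⟨a, b, by omega, by omega, e⟩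
  have hfg : Group.FG G := Group.fg_of_surjective hπ
  refine finite_of_bounded_orbits G hfg V ψ hψ ((D + 1) * (Δ + 1) ^ D) ?_
  intro x
  obtain ⟨t, ht, hts⟩ := collar_count p Δ hΔ D x
  exact ⟨t, ht, fun g => hts _ (near_symm (hnear g x))⟩

end Vale.Agent.P192.Pump
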