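import Vale.Agent.P192.Pump.TreeCore
import Vale.Agent.P196.Tree.Graph

namespace Vale.Agent.P192.Pump

open Vale.Agent.P196.Tree

/-- Version with a boundedly-finite-to-one map `f : X → V` to a graded forest.  Proof: copy of
`Vale.Agent.P196.Tree.core_tree_fibred` (attach the points of `X` as new leaves). -/
theorem torsion_core_tree_fibred (V X : Type) (p : V → V) (h : V → ℤ)
    (hp : ∀ v, h (p v) = h v + 1)
    (Δ : ℕ) (hΔ : ∀ v, ∃ t : Finset V, t.card ≤ Δ ∧ ∀ w, p w = v → w ∈ t)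
    (C : ℕ) (f : X → V) (hC : ∀ v, ∃ t : Finset X, t.card ≤ C ∧ ∀ x, f x = v → x ∈ t)
    (G : Type) [Group G] (hfp : Group.IsFinitelyPresented G) (htors : IsMulTorsion G)
    (ψ : G →* Equiv.Perm X) (hψ : Function.Injective ψ)
    (hb : ∀ g, ∃ N : ℕ, ∀ x, Near p N (f x) (f (ψ g x))) : Finite G := by
  classical
  let p' : V ⊕ X → V ⊕ X := fun y => Sum.inl (Sum.elim p f y)
  let h' : V ⊕ X → ℤ := fun y => Sum.elim h (fun x => h (f x) - 1) y
  have hp' : ∀ y, h' (p' y) = h' y + 1 := by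
    rintro (v | x)
    · exact hp v
    · simp [p', h']
  have hiter : ∀ (a : ℕ) (v : V), p'^[a] (Sum.inl v) = Sum.inl (p^[a] v) := by
    intro a
    induction a with
    | zero => intro v; rfl
    | succ n ih =>
      intro v
      rw [Function.iterate_succ_apply, Function.iterate_succ_apply]
      exact ih (p v)
  have hiter' : ∀ (a : ℕ) (x : X), p'^[a + 1] (Sum.inr x) = Sum.inl (p^[a] (f x)) := by
    intro a x
    rw [Function.iterate_succ_apply]
    exact hiter a (f x)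
  have hΔ' : ∀ y, ∃ t : Finset (V ⊕ X), t.card ≤ Δ + C ∧ ∀ w, p' w = y → w ∈ t := by
    rintro (v | x)
    · obtain ⟨t1, ht1, ht1'⟩ := hΔ v
      obtain ⟨t2, ht2, ht2'⟩ := hC v
      refine ⟨t1.image Sum.inl ∪ t2.image Sum.inr, ?_, ?_⟩
      · calc (t1.image Sum.inl ∪ t2.image Sum.inr).card
            ≤ (t1.image (Sum.inl : V → V ⊕ X)).card + (t2.image (Sum.inr : X → V ⊕ X)).card :=
              Finset.card_union_le _ _
          _ ≤ t1.card + t2.card := add_le_add Finset.card_image_le Finset.card_image_le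
          _ ≤ Δ + C := add_le_add ht1 ht2
      · rintro (w | w) hw
        · have : p w = v := Sum.inl_injective hw
          exact Finset.mem_union_left _ (Finset.mem_image_of_mem _ (ht1' w this))
        · have : f w = v := Sum.inl_injective hw
          exact Finset.mem_union_right _ (Finset.mem_image_of_mem _ (ht2' w this))
    · refine ⟨∅, by simp, ?_⟩
      intro w hw
      simp [p'] at hw
  let ι : X ↪ V ⊕ X := ⟨Sum.inr, Sum.inr_injective⟩
  refine torsion_core_tree (V ⊕ X) p' h' hp' (Δ + C) hΔ' G hfp htors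
    ((Equiv.Perm.viaEmbeddingHom ι).comp ψ) ?_ ?_
  · exact (Equiv.Perm.viaEmbeddingHom_injective ι).comp hψ
  · intro g
    obtain ⟨N, hN⟩ := hb g
    refine ⟨N + 1, ?_⟩
    intro y
    change Near p' (N + 1) y ((Equiv.Perm.viaEmbeddingHom ι (ψ g)) y)
    rw [Equiv.Perm.viaEmbeddingHom_apply]
    by_cases hy : y ∈ Set.range ι
    · obtain ⟨x, rfl⟩ := hy
      rw [Equiv.Perm.viaEmbedding_apply]
      obtain ⟨a, b, ha, hb', e⟩ := hN x
      refine ⟨a + 1, b + 1, by omega, by omega, ?_⟩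
      change p'^[a + 1] (Sum.inr x) = p'^[b + 1] (Sum.inr (ψ g x))
      rw [hiter', hiter', e]
    · rw [Equiv.Perm.viaEmbedding_apply_of_notMem _ _ _ hy]
      exact ⟨0, 0, by omega, by omega, rfl⟩

/-- Version for trees in the sense of `SimpleGraph.IsTree`.  Proof: copy of
`Vale.Agent.P196.Tree.tree_fibred`. -/
theorem torsion_tree_fibred (V X : Type) (T : SimpleGraph V) (hT : T.IsTree) (Δ : ℕ)
    (hdeg : ∀ v, ∃ t : Finset V, t.card ≤ Δ ∧ ∀ w, T.Adj v w → w ∈ t)
    (C : ℕ) (f : X → V) (hC : ∀ v, ∃ t : Finset X, t.card ≤ C ∧ ∀ x, f x = v → x ∈ t)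
    (G : Type) [Group G] (hfp : Group.IsFinitelyPresented G) (htors : IsMulTorsion G)
    (ψ : G →* Equiv.Perm X) (hψ : Function.Injective ψ)
    (hb : ∀ g, ∃ N : ℕ, ∀ x, T.dist (f x) (f (ψ g x)) ≤ N) : Finite G := by
  obtain ⟨p, h, hp, hΔ, hnear⟩ := exists_graded T hT Δ hdeg
  refine torsion_core_tree_fibred (V ⊕ ℕ) X p h hp (Δ + 1) hΔ C (fun x => Sum.inl (f x)) ?_ G hfp
    htors ψ hψ ?_
  · rintro (v | n)
    · obtain ⟨t, ht, ht'⟩ := hC v
      exact ⟨t, ht, fun x hx => ht' x (Sum.inl_injective hx)⟩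
    · exact ⟨∅, by simp, fun x hx => by simp at hx⟩
  · intro g
    obtain ⟨N, hN⟩ := hb g
    exact ⟨N, fun x => near_mono (hN x) (hnear _ _)⟩

end Vale.Agent.P192.Pump
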